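import Vale.Agent.P315.C.Stmt
import Vale.Agent.P315.H95.Boxes

/-!
P315, milestone 2: instances with classes, and the statement of the query theorem.

The geometry is `H95.clsPar` (labels = class, box, accumulated variation of the class). The weights
of the comparison path are natural numbers `S0 i` (a multiple of the cost of the path in the row,
plus `w0`); `w0` = half width of the boxes of class `0` of a row. The classes of the rows are at most
`Kc`, the root has class `κr ≤ Kc + 3`. The constants do not depend on the lengths `n`, `S`, `ℓ`,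
`μ`, `B`, `w0`, `Kc`, `κr`; a factor `2 ^ (a₀ Kc)` is lost in the number of cells.
-/

set_option autoImplicit false

namespace Vale.Agent.P315.H846

open Vale.Agent.P315.C Vale.Agent.P315.H95
open Vale.Agent.P315.H731 (av)
open Vale.Agent.P315.H659 (Ix toRnd)
open Vale.Agent.P315.H808 (Chain)

/-- An instance of milestone 2 with `M ^ n` rows, `M = 2 ^ m`. -/
structure Inst2 (P : Par) (m w0 Kc κr : ℕ) (vis hid : Leaf) (n : ℕ) (S0 : ℕ → ℕ)
    (C : Chain P vis hid n) : Prop where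
  pt : ∃ p, P.μ ∣ p ∧ p ≤ P.B ∧ P.adm p p
  hid_le : ∀ i p q, P.adm p q → hid i p q ≤ vis i p q
  path : PathOK m w0 Kc n κr S0 C.pos
  pos_le : ∀ i, i ≤ P.M ^ n → C.pos i ≤ P.B
  lab : ∀ j i, C.lab j i = lab m w0 S0 C.pos n κr j i
  w : ∀ i, C.w i = S0 i
  lower : ∀ (R : Finset (ℕ × ℕ)) (j i : ℕ), j ≤ n → i < P.M ^ (n - j) →
    ∑ r ∈ Finset.range (P.M ^ j), C.d (i * P.M ^ j + r) ≤
      cval P vis hid R j i (C.pos (i * P.M ^ j)) (C.pos ((i + 1) * P.M ^ j))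

/-- The query theorem for one choice of the parameters, for all instances: mean certified cost of
the root, and mean number of cells read. -/
def Good2 (Q : QPar) (m w0 Kc κr : ℕ) (ε A : ℝ) : Prop :=
  ∀ (vis hid : Leaf) (S0 : ℕ → ℕ) (C : Chain Q.P vis hid Q.n),
    Inst2 Q.P m w0 Kc κr vis hid Q.n S0 C →
    av (fun w : Q.Seed => (cR Q.P Q.mc (toRnd Q.P.J w) vis hid Q.n 0 (enc κr 0 0) Q.N
        (C.pos 0) (C.pos Q.K) : ℝ)) ≤
      ∑ i ∈ Finset.range Q.K, C.d i + ε * ∑ i ∈ Finset.range Q.K, (S0 i : ℝ) ∧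
    av (fun w : Q.Seed =>
        ((rd Q.P Q.mc (toRnd Q.P.J w) vis hid Q.n 0 (enc κr 0 0) Q.N).card : ℝ)) ≤ A

/-- **The query theorem of milestone 2** for a family of parameters; `m k cd D1` = constants
depending on `ε` (`M = 2 ^ (20 m)`, `J = 2 ^ k - 1`, cut `J n / 2 - n / cd`, penalty `D1` per
change of the class), `n` levels, `S` scales, row length `ℓ`, mesh `μ`, positions `≤ B`, box width
`w0`, classes `≤ Kc` of the rows, class `κr` of the root. -/
def StmtQT2 (fam : (m k cd D1 n S ℓ μ B w0 Kc κr : ℕ) → QPar) : Prop :=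
  ∀ ε : ℝ, 0 < ε → ∃ m k cd D1 e₀ a₀ n₀ : ℕ, ∃ c A : ℝ, 0 < m ∧ 0 < c ∧
    ∀ n S ℓ μ B w0 Kc κr : ℕ, n₀ ≤ n → 2 ^ S ∣ n → (n + 2) ^ 3 ≤ (2 ^ m) ^ 2 ^ S →
      2 ^ S ≤ 6 * (Nat.log 2 (n + 2) + 2) → 0 < μ → 0 < w0 → 2 ∣ ℓ →
      2 ^ (e₀ * 2 ^ S) * μ ∣ w0 → w0 ∣ ℓ → a₀ * (Kc + 1) ≤ n → κr ≤ Kc + 3 →
      2 * wd (20 * m) w0 n κr ≤ B →
      Good2 (fam m k cd D1 n S ℓ μ B w0 Kc κr) (20 * m) w0 Kc κr ε
        (A * 2 ^ (a₀ * Kc) * ((2 ^ (20 * m * n) : ℝ) ^ 2 * Real.exp (-c * n)))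

end Vale.Agent.P315.H846
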