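import Vale.Agent.P315.H846.QTM
import Vale.Agent.P315.H927.Val2

/-! Milestone 2: the numbers of the static coordinate of an instance, and the mean overshoot of the
static shift. -/

set_option autoImplicit false

open Finset

namespace Vale.Agent.P315.H846

open Vale.Agent.P315.C Vale.Agent.P315.H659 Vale.Agent.P315.H731 Vale.Agent.P315.Acc
open Vale.Agent.P315.H95
open Vale.Agent.P315.H808 (Chain Along)

/-- The parameters with the geometry of milestone 2. -/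
abbrev q2 (m ℓ μ B w0 J S H Kc D1 : ℕ) (mc : C.Mach) (n : ℕ) (N : ℤ) (Cn q : ℕ) : QPar where
  P := clsPar m ℓ μ B w0 J S H (Kc + 3) D1
  mc := mc
  n := n
  N := N
  Cn := Cn
  q := q

variable {m ℓ μ B w0 J S H Kc D1 n Cn q κr : ℕ} {mc : C.Mach} {N : ℤ} {vis hid : Leaf}
  {S0 : ℕ → ℕ} {C : Chain (clsPar m ℓ μ B w0 J S H (Kc + 3) D1) vis hid n}

section

variable (hI : Inst2 (clsPar m ℓ μ B w0 J S H (Kc + 3) D1) m w0 Kc κr vis hid n S0 C)

include hI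

theorem Inst2.kid {j i : ℕ} (hj : j < n) (hi : i < (2 ^ m) ^ (n - j)) :
    C.lab j i ∈ kids m (Kc + 3) (C.lab (j + 1) (i / 2 ^ m)) := by
  have hp : 0 < 2 ^ m := by positivity
  have h1 : i / 2 ^ m < (2 ^ m) ^ (n - (j + 1)) := by
    rw [Nat.div_lt_iff_lt_mul hp, ← pow_succ]
    have : n - (j + 1) + 1 = n - j := by omega
    rwa [this]
  have h2 := C.kid j (i / 2 ^ m) (i % 2 ^ m) hj h1 (Nat.mod_lt _ hp)
  have h3 : i / 2 ^ m * 2 ^ m + i % 2 ^ m = i := Nat.div_add_mod' _ _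
  change C.lab j (i / 2 ^ m * 2 ^ m + i % 2 ^ m) ∈ _ at h2
  rw [h3] at h2
  exact h2

theorem Inst2.cl_lab_le (j i : ℕ) : cl (C.lab j i) ≤ Kc + 3 := by
  rw [hI.lab]
  exact hI.path.cl_le j i

theorem Inst2.pen_le {j i : ℕ} (hj : j < n) (hi : i < (2 ^ m) ^ (n - j)) :
    D1 * (ac (C.lab j i) - ac (C.lab (j + 1) (i / 2 ^ m))) ≤ D1 * (Kc + 3) := by
  refine Nat.mul_le_mul_left _ ?_
  have h1 := (mem_kids.1 (hI.kid hj hi)).2.2.2.2
  have h2 := hI.cl_lab_le j i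
  have h3 := hI.cl_lab_le (j + 1) (i / 2 ^ m)
  rw [h1]
  unfold Nat.dist
  omega

theorem Inst2.root_lab : C.lab n 0 = enc κr 0 0 := by
  rw [hI.lab, lab_root]

/-- The numbers of the static coordinate. -/
def mkCut (lo : ℤ) (smax NB D0 : ℕ) (hq : 0 < q) (hD0 : 0 < D0) (hn : 2 ^ smax ∣ n)
    (hfin : ((n * (J + D1 * (Kc + 3)) : ℕ) : ℤ) ≤ lo + (NB * (16 ^ smax * D0) : ℕ))
    (hN : N = lo + (16 ^ smax * D0 : ℕ)) :
    Cut2 (q2 m ℓ μ B w0 J S H Kc D1 mc n N Cn q) C where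
  lo := lo
  smax := smax
  NB := NB
  D0 := D0
  qb := J + D1 * (Kc + 3)
  hM := by show 0 < 2 ^ m; positivity
  hq := hq
  hD0 := hD0
  hn := hn
  pt := hI.pt
  hle := hI.hid_le
  hsft := fun j i hj hi => Nat.add_le_add_left (hI.pen_le hj hi) _
  hfin := hfin
  hN := hN

end

/-- Weighted mean of the penalties. -/
theorem EE_penSum_le (hI : Inst2 (clsPar m ℓ μ B w0 J S H (Kc + 3) D1) m w0 Kc κr vis hid n S0 C) :
    EE (fun x : Fin ((2 ^ m) ^ n) => C.w x) (fun x => (C.penSum x : ℝ)) ≤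
      D1 * (2 / Real.log 2 * (Kc * Real.log 2 + 2 * √(2 * n * (Kc * Real.log 2))) + (κr + 2)) := by
  have hv := hI.path.var_le
  have hroot : ac (C.lab n 0) = 0 := by rw [hI.root_lab]; simp
  have hpen : ∀ x : Fin ((2 ^ m) ^ n), C.penSum x = D1 * ac (C.lab 0 x) := by
    intro x
    rw [← H927.penSum_cls C hroot x.isLt]
    unfold H808.Chain.penSum H927.penSum
    refine sum_congr rfl fun l _ => ?_
    rw [Nat.div_div_eq_div_mul, ← pow_succ]
  have hS : (0 : ℝ) < ∑ x ∈ range ((2 ^ m) ^ n), (S0 x : ℝ) := by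
    refine sum_pos (fun x _ => ?_) ⟨0, mem_range.2 (by positivity)⟩
    have h1 := C.w_pos x
    rw [hI.w] at h1
    exact h1
  unfold EE
  have e1 : ∑ x : Fin ((2 ^ m) ^ n), C.w x * (C.penSum x : ℝ) =
      D1 * ∑ x ∈ range ((2 ^ m) ^ n), (S0 x : ℝ) * ac (lab m w0 S0 C.pos n κr 0 x) := by
    rw [← Fin.sum_univ_eq_sum_range (fun x => (S0 x : ℝ) * ac (lab m w0 S0 C.pos n κr 0 x)),
      mul_sum]
    refine sum_congr rfl fun x _ => ?_
    rw [hpen x, hI.lab, hI.w]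
    push_cast
    ring
  have e2 : ∑ x : Fin ((2 ^ m) ^ n), C.w x = ∑ x ∈ range ((2 ^ m) ^ n), (S0 x : ℝ) := by
    rw [← Fin.sum_univ_eq_sum_range (fun x => (S0 x : ℝ))]
    exact sum_congr rfl fun x _ => hI.w x
  rw [e1, e2, div_le_iff₀ hS]
  have h2 := mul_le_mul_of_nonneg_left hv (Nat.cast_nonneg (α := ℝ) D1)
  calc _ ≤ _ := h2
    _ = _ := by ring

/-- **VAL of milestone 2** for the seeds of the query theorem. -/
theorem val2 (hI : Inst2 (clsPar m ℓ μ B w0 J S H (Kc + 3) D1) m w0 Kc κr vis hid n S0 C)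
    (hq : 0 < q) (hJ : J + 1 ∣ q) {lo : ℤ} (hlo : (lo : ℝ) ≤ (n : ℝ) * J / 2) :
    av (fun w : (q2 m ℓ μ B w0 J S H Kc D1 mc n N Cn q).Seed =>
      EE (fun x : Fin ((2 ^ m) ^ n) => C.w x)
        (fun x => max 0 (((C.along mc (toRnd J w) hI.pt hI.hid_le).S 0 x : ℝ) - lo))) ≤
      ((n : ℝ) * J / 2 - lo) + J * Real.sqrt n / 2 +
        D1 * (2 / Real.log 2 * (Kc * Real.log 2 + 2 * √(2 * n * (Kc * Real.log 2))) +
          (κr + 2)) := by
  have hM : 0 < (clsPar m ℓ μ B w0 J S H (Kc + 3) D1).M := by show 0 < 2 ^ m; positivity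
  have h1 := H808.av_val C mc hI.pt hI.hid_le hM (S := S) (Cn := Cn) hq hJ hlo
  refine h1.trans ?_
  have h2 := EE_penSum_le hI
  exact add_le_add_right h2 _

end Vale.Agent.P315.H846
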