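import Vale.Agent.P315.H808.QT2
import Vale.Agent.P315.H846.Stmt2

/-! Milestone 2, value half of the query theorem: Theorem A averaged over the seeds, for any chain
(weights, labels, penalties), with a set of good units. -/

set_option autoImplicit false

open Finset Filter

namespace Vale.Agent.P315.H846

open Vale.Agent.P315.C Vale.Agent.P315.H659 Vale.Agent.P315.H731 Vale.Agent.P315.Acc
open Vale.Agent.P315.H808 (Chain Along bs av_avO)

/-- Numbers of the static coordinate, for the chain `C`: own index `lo` of the root at the static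
index `0`, scales `≤ smax`, `NB` blocks of the largest scale, blocks of length `D0` at the scale
`0`, shifts `≤ qb`. -/
structure Cut2 (Q : QPar) {vis hid : Leaf} (C : Chain Q.P vis hid Q.n) where
  lo : ℤ
  smax : ℕ
  NB : ℕ
  D0 : ℕ
  qb : ℕ
  hM : 0 < Q.P.M
  hq : 0 < Q.q
  hD0 : 0 < D0
  hn : 2 ^ smax ∣ Q.n
  pt : ∃ p, Q.P.μ ∣ p ∧ p ≤ Q.P.B ∧ Q.P.adm p p
  hle : ∀ i p q, Q.P.adm p q → hid i p q ≤ vis i p q
  hsft : ∀ j i, j < Q.n → i < Q.P.M ^ (Q.n - j) →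
    Q.P.J + Q.P.pen (j + 1) 1 (C.lab (j + 1) (i / Q.P.M)) (C.lab j i) ≤ qb
  hfin : ((Q.n * qb : ℕ) : ℤ) ≤ lo + (NB * (16 ^ smax * D0) : ℕ)
  hN : Q.N = lo + (16 ^ smax * D0 : ℕ)

namespace Cut2

variable {Q : QPar} {vis hid : Leaf} {C : Chain Q.P vis hid Q.n} (K : Cut2 Q C)

include K

theorem nonempty : Nonempty (Fin (Q.P.M ^ Q.n)) := ⟨⟨0, Nat.pow_pos K.hM⟩⟩

/-- The data along the comparison path for the seed `w`. -/
noncomputable def al (w : Q.Seed) : Along Q.P.M Q.n :=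
  C.along Q.mc (toRnd Q.P.J w) K.pt K.hle

theorem sft_le (w : Q.Seed) (j i : ℕ) (hj : j < Q.n) (hi : i < Q.P.M ^ (Q.n - j)) :
    (K.al w).sft j i ≤ K.qb := by
  show (toRnd Q.P.J w).xi (j + 1) (i % Q.P.M) +
    Q.P.pen (j + 1) 1 (C.lab (j + 1) (i / Q.P.M)) (C.lab j i) ≤ K.qb
  exact (Nat.add_le_add_right (toRnd_xi_le _ _ _ _) _).trans (K.hsft j i hj hi)

theorem fin_le : (∑ _l ∈ range Q.n, (K.qb : ℤ)) ≤ K.lo + (K.NB * (16 ^ K.smax * K.D0) : ℕ) := by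
  have := K.hfin
  rw [sum_const, card_range, nsmul_eq_mul]
  push_cast at this ⊢
  exact this

/-- The system of curves of the seed `w`. -/
noncomputable def sys [Nonempty (Fin (Q.P.M ^ Q.n))] (w : Q.Seed) : Sys (Fin (Q.P.M ^ Q.n)) :=
  (K.al w).cut K.hM K.lo K.smax K.NB K.D0 (fun _ => K.qb) K.hD0 K.hn
    (K.sft_le w) K.fin_le

theorem DE_root (w : Q.Seed) : (K.al w).DE Q.n 0 = ∑ i ∈ range Q.K, C.d i := by
  show bs Q.P.M (fun r => C.d r + 0) Q.n 0 = _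
  unfold bs QPar.K
  simp

theorem W_root (w : Q.Seed) : (K.al w).W Q.n 0 = ∑ i ∈ range Q.K, C.w i := by
  show bs Q.P.M C.w Q.n 0 = _
  unfold bs QPar.K
  simp

/-- Certified cost of the root from its normalised excess. -/
theorem cR_root_le (w : Q.Seed) :
    (cR Q.P Q.mc (toRnd Q.P.J w) vis hid Q.n 0 (C.lab Q.n 0) Q.N (C.pos 0) (C.pos Q.K) : ℝ) ≤
      ∑ i ∈ range Q.K, C.d i + (∑ i ∈ range Q.K, C.w i) * (K.al w).ex Q.n 0 Q.N := by
  have h := (K.al w).C_le_ex K.hM Q.n 0 Q.N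
  rw [K.DE_root, K.W_root] at h
  have h2 : (K.al w).C Q.n 0 Q.N =
      (cR Q.P Q.mc (toRnd Q.P.J w) vis hid Q.n 0 (C.lab Q.n 0) Q.N
        (C.pos 0) (C.pos Q.K) : ℝ) := by
    show (cR Q.P Q.mc (toRnd Q.P.J w) vis hid Q.n 0 (C.lab Q.n 0) Q.N
      (C.pos (0 * Q.P.M ^ Q.n)) (C.pos ((0 + 1) * Q.P.M ^ Q.n)) : ℝ) = _
    simp [QPar.K]
  rw [h2] at h
  exact h

/-- The mean certified cost of the root from the mean excess. -/
theorem av_cR_le {ε : ℝ} (h : av (fun w : Q.Seed => (K.al w).ex Q.n 0 Q.N) ≤ ε) :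
    av (fun w : Q.Seed => (cR Q.P Q.mc (toRnd Q.P.J w) vis hid Q.n 0 (C.lab Q.n 0) Q.N
        (C.pos 0) (C.pos Q.K) : ℝ)) ≤
      ∑ i ∈ range Q.K, C.d i + ε * ∑ i ∈ range Q.K, C.w i := by
  have : Nonempty (Fin Q.q) := ⟨⟨0, K.hq⟩⟩
  refine (av_mono fun w => K.cR_root_le w).trans ?_
  rw [av_add, av_const, av_const_mul]
  have h3 : (0 : ℝ) ≤ ∑ i ∈ range Q.K, C.w i := sum_nonneg fun i _ => (C.w_pos i).le
  have := mul_le_mul_of_nonneg_left h h3
  linarith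

end Cut2

/-- **Value half of the query theorem**, all error terms as hypotheses. -/
theorem qt_value2 {eps0 CL : ℝ} (he : 0 < eps0) (hCL : 0 ≤ CL) :
    ∀ᶠ m : ℕ in atTop, ∀ (Q : QPar) (vis hid : Leaf) (C : Chain Q.P vis hid Q.n) (K : Cut2 Q C)
      [Nonempty (Fin (Q.P.M ^ Q.n))]
      (R : ∀ w : Q.Seed, Acc.Mach (K.sys w)) (P : ∀ w : Q.Seed, H295.Thr (K.sys w) (R w))
      (C7 : ℝ) (L : ℕ → ℝ) (good : ℕ → ℕ → Fin (Q.P.M ^ Q.n) → Prop)
      (Cap : Q.Seed → ℕ → ℕ → ℕ → Fin (Q.P.M ^ Q.n) → ℝ)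
      (Fail : Q.Seed → ℕ → ℕ → ℕ → Fin (Q.P.M ^ Q.n) → Prop) (VA HA CA FA BA : ℝ),
      8 ≤ C7 → K.D0 = m ^ 2 → (∀ w, (P w).th = Par.thm m) → (∀ w, (P w).th' = Par.thpm eps0 m) →
      (∀ w s, 0 ≤ (P w).c s) → (∀ w s, 1 ≤ s → s ≤ K.smax → 3 * (P w).c s < 1) →
      (∀ w s t, 1 ≤ s → s + 2 ≤ t → t ≤ K.smax → 80 * (P w).c t ≤ 3 * (P w).th s) →
      (∀ s, 0 ≤ L s) → (∀ s, L s ≤ CL * m * 2 ^ s) → (∀ w o s a x, 0 ≤ Cap w o s a x) →
      (5 / 2 + 5 / 2 * (CL * m) + 12 * m) * 4 ^ K.smax ≤ eps0 * Q.n →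
      Q.n * (K.NB * Par.thm m K.smax) ≤ eps0 * Q.n →
      (∀ w o, o < 16 ^ K.smax * K.D0 → ∀ s ∈ Icc 1 K.smax, ∀ a < Q.n / 2 ^ s,
        H295.H3bU (R w) (P w).act C7 L good (Cap w) (Fail w) o s a) →
      av (fun w => EE (fun x : Fin (Q.P.M ^ Q.n) => C.w x)
        (fun x => max 0 (((K.al w).S 0 x : ℝ) - K.lo))) ≤ VA →
      (∀ o, o < 16 ^ K.smax * K.D0 →
        av (fun w => H295.He (K.sys w) (Par.thm m 0 / 2) o) ≤ HA) →
      (∀ w, ∑ s ∈ Icc 1 K.smax, (K.sys w).avO (fun o => H295.TA (K.sys w) s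
        (fun a x => Cap w o s a x)) ≤ CA) →
      (∀ o, o < 16 ^ K.smax * K.D0 → av (fun w => ∑ s ∈ Icc 1 K.smax,
        2 ^ s * H295.TA (K.sys w) s (fun a x => ind (Fail w o s a x))) ≤ FA) →
      (∀ w, ∑ s ∈ Icc 1 K.smax,
        2 ^ s * H295.TA (K.sys w) s (fun a x => ind (¬ good s a x)) ≤ BA) →
      Q.n * av (fun w => (K.al w).ex Q.n 0 Q.N) ≤
        (4 + eps0) * VA + 4 * eps0 * Q.n + HA + CA + FA + BA := by
  filter_upwards [H241.theoremA he hCL] with m hm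
  intro Q vis hid C K _ R P C7 L good Cap Fail VA HA CA FA BA hC7 hD0 hth hth' hc0 hc1 hc2 hL0 hL
    hCap hS hlast hb hVA hHA hCA hFA hBA
  have hne : Nonempty (Fin Q.q) := ⟨⟨0, K.hq⟩⟩
  have hDpos : 0 < 16 ^ K.smax * K.D0 := Nat.mul_pos (by positivity) K.hD0
  -- pathwise inequality
  have hpath : ∀ w : Q.Seed, Q.n * (K.al w).ex Q.n 0 Q.N ≤
      (4 + eps0) * EE (fun x : Fin (Q.P.M ^ Q.n) => C.w x)
        (fun x => max 0 (((K.al w).S 0 x : ℝ) - K.lo)) + 4 * eps0 * Q.n +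
        (K.sys w).avO (H295.He (K.sys w) (Par.thm m 0 / 2)) + (CA + BA) +
        (K.sys w).avO (fun o => ∑ s ∈ Icc 1 K.smax,
          2 ^ s * H295.TA (K.sys w) s (fun a x => ind (Fail w o s a x))) := by
    intro w
    have h1 := hm (Fin (Q.P.M ^ Q.n)) (K.sys w) (R w) (P w) C7 L good (Cap w)
      (Fail w) hC7 hD0 (hth w) (hth' w) (hc0 w) (hc1 w) (hc2 w) hL0 hL (hCap w) hS
      (by rw [H808.CutPar.nb_smax]; exact hlast) (hb w)
    have h2 := (K.al w).cut_mass (hM := K.hM) (lo := K.lo) (smax := K.smax) (NB := K.NB)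
      (D0 := K.D0) (q := fun _ => K.qb) (hD0 := K.hD0) (hn := K.hn)
      (hq := K.sft_le w) (hfin := K.fin_le) (16 ^ K.smax * K.D0)
    have h3 := (K.al w).cut_Gam_le (hM := K.hM) (lo := K.lo) (smax := K.smax) (NB := K.NB)
      (D0 := K.D0) (q := fun _ => K.qb) (hD0 := K.hD0) (hn := K.hn)
      (hq := K.sft_le w) (hfin := K.fin_le)
    rw [← K.hN] at h2
    have h4 : (K.sys w).Gam ≤ EE (fun x : Fin (Q.P.M ^ Q.n) => C.w x)
        (fun x => max 0 (((K.al w).S 0 x : ℝ) - K.lo)) := h3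
    have h5 : Q.n * (K.al w).ex Q.n 0 Q.N ≤ ∑ j ∈ range (K.sys w).n,
        (K.sys w).E (fun x => (K.sys w).e j x ((K.sys w).D (K.sys w).smax)) := h2
    have h6 := mul_le_mul_of_nonneg_left h4 (by linarith : 0 ≤ 4 + eps0)
    have h7 : ∑ s ∈ Icc 1 (K.sys w).smax,
        ((K.sys w).avO (fun o => H295.TA (K.sys w) s (fun a x => Cap w o s a x)) +
          2 ^ s * (K.sys w).avO (fun o => H295.TA (K.sys w) s
            (fun a x => ind (Fail w o s a x))) +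
          2 ^ s * H295.TA (K.sys w) s (fun a x => ind (¬ good s a x))) ≤
        (CA + BA) + (K.sys w).avO (fun o => ∑ s ∈ Icc 1 K.smax,
          2 ^ s * H295.TA (K.sys w) s (fun a x => ind (Fail w o s a x))) := by
      rw [sum_add_distrib, sum_add_distrib]
      have e1 : ∑ s ∈ Icc 1 (K.sys w).smax, 2 ^ s * (K.sys w).avO (fun o =>
          H295.TA (K.sys w) s (fun a x => ind (Fail w o s a x))) =
          (K.sys w).avO (fun o => ∑ s ∈ Icc 1 K.smax,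
            2 ^ s * H295.TA (K.sys w) s (fun a x => ind (Fail w o s a x))) := by
        rw [H241.avO_sum]
        exact sum_congr rfl fun s _ => (H241.avO_mul_left _ _ _).symm
      rw [e1]
      have e2 := hCA w
      have e3 := hBA w
      have e4 : ∑ s ∈ Icc 1 (K.sys w).smax, (K.sys w).avO (fun o => H295.TA (K.sys w) s
        (fun a x => Cap w o s a x)) ≤ CA := e2
      have e5 : ∑ s ∈ Icc 1 (K.sys w).smax,
        2 ^ s * H295.TA (K.sys w) s (fun a x => ind (¬ good s a x)) ≤ BA := e3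
      linarith
    refine (h5.trans h1).trans ?_
    refine (add_le_add (add_le_add (add_le_add h6 le_rfl) le_rfl) h7).trans (le_of_eq ?_)
    rw [← add_assoc]
    rfl
  have h1 : Q.n * av (fun w => (K.al w).ex Q.n 0 Q.N) ≤
      av (fun w => (4 + eps0) * EE (fun x : Fin (Q.P.M ^ Q.n) => C.w x)
        (fun x => max 0 (((K.al w).S 0 x : ℝ) - K.lo)) + 4 * eps0 * Q.n +
        (K.sys w).avO (H295.He (K.sys w) (Par.thm m 0 / 2)) + (CA + BA) +
        (K.sys w).avO (fun o => ∑ s ∈ Icc 1 K.smax,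
          2 ^ s * H295.TA (K.sys w) s (fun a x => ind (Fail w o s a x)))) := by
    rw [← av_const_mul]
    exact av_mono hpath
  refine h1.trans ?_
  rw [av_add, av_add, av_add, av_add, av_const_mul, av_const, av_const]
  have h2 : av (fun w => (K.sys w).avO (H295.He (K.sys w) (Par.thm m 0 / 2))) ≤ HA :=
    av_avO (fun w => K.sys w) (D := 16 ^ K.smax * K.D0) (fun w => rfl)
      (fun w o => H295.He (K.sys w) (Par.thm m 0 / 2) o) hDpos hHA
  have h3 : av (fun w => (K.sys w).avO (fun o => ∑ s ∈ Icc 1 K.smax,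
      2 ^ s * H295.TA (K.sys w) s (fun a x => ind (Fail w o s a x)))) ≤ FA :=
    av_avO (fun w => K.sys w) (D := 16 ^ K.smax * K.D0) (fun w => rfl) _ hDpos hFA
  have h4 := mul_le_mul_of_nonneg_left hVA (by linarith : 0 ≤ 4 + eps0)
  linarith

end Vale.Agent.P315.H846
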