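import Vale.Agent.P315.H95.Var
import Vale.Agent.P315.H226.Heavy

/-! P315, milestone 2: the mass-weighted number of rows of a lineage whose share in the parent is
large. -/

set_option autoImplicit false

namespace Vale.Agent.P315.H846

open Finset
open Vale.Agent.P315.H95 Vale.Agent.P315.H869
open Vale.Agent.P315.Acc (EE ind ind_true ind_false)
open Vale.Agent.P315.H226 (share)

variable {m w0 Kc n κr : ℕ} {S0 pos : ℕ → ℕ}

/-- The mass-biased average of `869` is the weighted average of the accounting. -/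
theorem EQ_eq_EE (h : PathOK m w0 Kc n κr S0 pos) {c : ℝ} (hc : 0 < c)
    (f : Fin ((2 ^ m) ^ n) → ℝ) :
    EQ (fun _ => (1 : ℝ)) (fun y : Fin ((2 ^ m) ^ n) => (S0 y.val : ℝ) / w0) f =
      EE (fun x : Fin ((2 ^ m) ^ n) => c * (S0 x.val : ℝ)) f := by
  have hw0 : (0 : ℝ) < w0 := by exact_mod_cast h.w0_pos
  unfold EQ EE
  have e1 : ∑ x : Fin ((2 ^ m) ^ n), 1 * ((S0 x.val : ℝ) / w0) * f x =
      (∑ x : Fin ((2 ^ m) ^ n), c * (S0 x.val : ℝ) * f x) * (1 / (c * w0)) := by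
    rw [sum_mul]
    refine sum_congr rfl fun x _ => ?_
    field_simp
  have e2 : ∑ x : Fin ((2 ^ m) ^ n), 1 * ((S0 x.val : ℝ) / w0) =
      (∑ x : Fin ((2 ^ m) ^ n), c * (S0 x.val : ℝ)) * (1 / (c * w0)) := by
    rw [sum_mul]
    refine sum_congr rfl fun x _ => ?_
    field_simp
  rw [e1, e2, mul_div_mul_right _ _ (by positivity)]

theorem mass_pos' (h : PathOK m w0 Kc n κr S0 pos) (j i : ℕ) : 0 < mass m S0 j i :=
  lt_of_lt_of_le (Nat.mul_pos h.w0_pos (by positivity)) (mul_le_mass h.le_S0 j i)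

/-- The share of a slab in its parent, and the increment of the density. -/
theorem share_eq (h : PathOK m w0 Kc n κr S0 pos) {c : ℝ} (hc : 0 < c) {a : ℕ} (ha : a < n)
    (x : Fin ((2 ^ m) ^ n)) :
    inc (qq m n) (fun _ => (1 : ℝ)) (fun y : Fin ((2 ^ m) ^ n) => (S0 y.val : ℝ) / w0) a x =
      Real.log (2 ^ m * share (fun x : Fin ((2 ^ m) ^ n) => c * (S0 x.val : ℝ))
        (fun j x => x.val / (2 ^ m) ^ j) a x) ∧
    0 < share (fun x : Fin ((2 ^ m) ^ n) => c * (S0 x.val : ℝ))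
        (fun j x => x.val / (2 ^ m) ^ j) a x := by
  have hw0 : (0 : ℝ) < w0 := by exact_mod_cast h.w0_pos
  have key : ∀ j, j ≤ n → ∑ y ∈ univ.filter (fun y : Fin ((2 ^ m) ^ n) =>
      y.val / (2 ^ m) ^ j = x.val / (2 ^ m) ^ j), c * (S0 y.val : ℝ) =
        c * (mass m S0 j (x.val / (2 ^ m) ^ j) : ℝ) := by
    intro j hj
    have h1 := sum_cell (fun y => c * (S0 y : ℝ)) hj x
    unfold cell qq at h1
    rw [h1, ← mul_sum]
    unfold mass
    push_cast
    rfl
  have hA : (0 : ℝ) < mass m S0 a (x.val / (2 ^ m) ^ a) := by exact_mod_cast mass_pos' h _ _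
  have hB : (0 : ℝ) < mass m S0 (a + 1) (x.val / (2 ^ m) ^ (a + 1)) := by
    exact_mod_cast mass_pos' h _ _
  have hs : share (fun x : Fin ((2 ^ m) ^ n) => c * (S0 x.val : ℝ))
        (fun j x => x.val / (2 ^ m) ^ j) a x =
      (mass m S0 a (x.val / (2 ^ m) ^ a) : ℝ) /
        mass m S0 (a + 1) (x.val / (2 ^ m) ^ (a + 1)) := by
    unfold share
    rw [key a ha.le, key (a + 1) ha, mul_div_mul_left _ _ hc.ne']
  rw [hs]
  refine ⟨?_, div_pos hA hB⟩
  unfold inc
  rw [avg_qq ha.le, avg_qq (by omega : a + 1 ≤ n)]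
  have hMa : (0 : ℝ) < ((w0 * (2 ^ m) ^ a : ℕ) : ℝ) := by
    exact_mod_cast Nat.mul_pos h.w0_pos (by positivity)
  have hMb : (0 : ℝ) < ((w0 * (2 ^ m) ^ (a + 1) : ℕ) : ℝ) := by
    exact_mod_cast Nat.mul_pos h.w0_pos (by positivity)
  rw [← Real.log_div (div_pos hA hMa).ne' (div_pos hB hMb).ne']
  congr 1
  push_cast
  have h2 : (0 : ℝ) < (2 ^ m) ^ a := by positivity
  field_simp
  ring

/-- **Children with a large share are rare.** -/
theorem share_jump (h : PathOK m w0 Kc n κr S0 pos) {c : ℝ} (hc : 0 < c) {q0 : ℝ}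
    (hq : 1 < 2 ^ m * q0) :
    ∑ a ∈ range n, EE (fun x : Fin ((2 ^ m) ^ n) => c * (S0 x.val : ℝ))
      (fun x => ind (q0 < share (fun x : Fin ((2 ^ m) ^ n) => c * (S0 x.val : ℝ))
        (fun j x => x.val / (2 ^ m) ^ j) a x)) ≤
      (Kc * Real.log 2 + √(2 * n * (Kc * Real.log 2))) / Real.log (2 ^ m * q0) := by
  have hw0 : (0 : ℝ) < w0 := by exact_mod_cast h.w0_pos
  have hne : Nonempty (Fin ((2 ^ m) ^ n)) := ⟨⟨0, by positivity⟩⟩
  have hS : ∀ x, (0 : ℝ) < S0 x := fun x => by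
    exact_mod_cast lt_of_lt_of_le h.w0_pos (h.le_S0 x)
  have hH : ∀ x : Fin ((2 ^ m) ^ n), 0 < (S0 x.val : ℝ) / w0 := fun x => div_pos (hS _) hw0
  have hlog : 0 < Real.log (2 ^ m * q0) := Real.log_pos hq
  have key := sum_jump_le (q := qq m n) (w := fun _ => (1 : ℝ))
    (H := fun y => (S0 y.val : ℝ) / w0) (n := n) (B := Kc * Real.log 2) qq_nest
    (fun _ => one_pos) hH (by
      intro x
      rw [avg_qq (Nat.zero_le n), avg_qq le_rfl]
      have h1 : 0 ≤ Real.log ((mass m S0 n (x.val / (2 ^ m) ^ n) : ℝ) /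
          (w0 * (2 ^ m) ^ n : ℕ)) := by
        apply Real.log_nonneg
        have h2 : 0 < w0 * (2 ^ m) ^ n := Nat.mul_pos h.w0_pos (by positivity)
        rw [one_le_div (by exact_mod_cast h2)]
        exact_mod_cast mul_le_mass h.le_S0 n _
      have h3 : Real.log ((mass m S0 0 (x.val / (2 ^ m) ^ 0) : ℝ) / (w0 * (2 ^ m) ^ 0 : ℕ)) ≤
          Kc * Real.log 2 := by
        rw [mass_zero, pow_zero, Nat.div_one, mul_one, ← Real.log_pow]
        refine Real.log_le_log (div_pos (hS _) hw0) ?_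
        rw [div_le_iff₀ hw0]
        exact_mod_cast h.S0_le _
      linarith) hlog
  refine le_trans (sum_le_sum fun a ha => ?_) key
  rw [← EQ_eq_EE h hc]
  refine EQ_mono (fun _ => one_pos) hH fun x => ?_
  obtain ⟨h1, h2⟩ := share_eq h hc (mem_range.1 ha) x
  by_cases hx : q0 < share (fun x : Fin ((2 ^ m) ^ n) => c * (S0 x.val : ℝ))
        (fun j x => x.val / (2 ^ m) ^ j) a x
  · rw [ind_true hx, if_pos]
    rw [h1]
    refine Real.log_lt_log (by linarith) ?_
    exact mul_lt_mul_of_pos_left hx (by positivity)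
  · rw [ind_false hx]
    split_ifs <;> norm_num

end Vale.Agent.P315.H846
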