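import Vale.Agent.P315.H846.Rows2
import Vale.Agent.P315.H846.Share
import Vale.Agent.P315.H808.HePlug

/-! Milestone 2: heavy blocks of scale `0`, averaged over the seeds, and the number. -/

set_option autoImplicit false

open Finset Filter

namespace Vale.Agent.P315.H846

open Vale.Agent.P315.C Vale.Agent.P315.H659 Vale.Agent.P315.H731 Vale.Agent.P315.Acc
open Vale.Agent.P315.H95
open Vale.Agent.P315.H808 (Chain Along)

variable {m₀ ℓ μ B w0 J S H Kc D1 n Cn q κr : ℕ} {mc : C.Mach} {N : ℤ} {vis hid : Leaf}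
  {S0 : ℕ → ℕ} {C : Chain (clsPar (20 * m₀) ℓ μ B w0 J S H (Kc + 3) D1) vis hid n}
  [Nonempty (Fin ((q2 (20 * m₀) ℓ μ B w0 J S H Kc D1 mc n N Cn q).P.M ^
    (q2 (20 * m₀) ℓ μ B w0 J S H Kc D1 mc n N Cn q).n))]

/-- **(HE)** of milestone 2. -/
theorem he_row2
    (hI : Inst2 (clsPar (20 * m₀) ℓ μ B w0 J S H (Kc + 3) D1) (20 * m₀) w0 Kc κr vis hid n S0 C)
    (K : Cut2 (q2 (20 * m₀) ℓ μ B w0 J S H Kc D1 mc n N Cn q) C) (hm : 0 < m₀) (hJ : J + 1 ∣ q)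
    (hD0 : K.D0 = m₀ ^ 2) (o : ℕ) :
    av (fun w => H295.He (K.sys w) (Par.thm m₀ 0 / 2) o) ≤
      (Kc * Real.log 2 + √(2 * n * (Kc * Real.log 2))) / (10 * m₀ * Real.log 2) +
      n * ((Par.thm m₀ 0 / 2)⁻¹ * (1 / 2 ^ (10 * m₀) + (m₀ : ℝ) ^ 2 / ((J : ℝ) + 1))) := by
  have ht : 0 < Par.thm m₀ 0 / 2 := by unfold Par.thm; positivity
  have h := H808.av_He_chain (S := S) (Cn := Cn) C mc K.pt K.hle K.hM K.hq hJ K.lo
    K.smax K.NB K.D0 (fun _ => K.qb) K.hD0 K.hn (fun w => K.sft_le w) K.fin_le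
    (fun w => K.sys w) (fun w => rfl) o ht (q0 := 1 / 2 ^ (10 * m₀)) (by positivity)
  refine h.trans ?_
  rw [hD0]
  have e1 : (2 : ℝ) ^ (20 * m₀) * (1 / 2 ^ (10 * m₀)) = 2 ^ (10 * m₀) := by
    rw [show 20 * m₀ = 10 * m₀ + 10 * m₀ by ring, pow_add]
    field_simp
  have h1 := share_jump (n := n) (κr := κr) hI.path one_pos (q0 := 1 / 2 ^ (10 * m₀)) (by
    rw [e1]
    exact one_lt_pow₀ (by norm_num) (by omega))
  rw [e1, Real.log_pow] at h1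
  have e2 : (fun x : Fin ((2 ^ (20 * m₀)) ^ n) => C.w x) =
      fun x : Fin ((2 ^ (20 * m₀)) ^ n) => (1 : ℝ) * (S0 x.val : ℝ) := by
    funext x
    rw [hI.w, one_mul]
  have h2 : ∑ a ∈ range n, EE (fun x : Fin ((2 ^ (20 * m₀)) ^ n) => C.w x)
        (fun x => ind ((1 : ℝ) / 2 ^ (10 * m₀) <
          H226.share (fun x : Fin ((2 ^ (20 * m₀)) ^ n) => C.w x)
          (fun j x => (x : ℕ) / (2 ^ (20 * m₀)) ^ j) a x)) ≤
      (Kc * Real.log 2 + √(2 * n * (Kc * Real.log 2))) / (10 * m₀ * Real.log 2) := by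
    rw [e2]
    refine h1.trans (le_of_eq ?_)
    push_cast
    rfl
  refine add_le_add h2 (le_of_eq ?_)
  push_cast
  rfl

/-- The second number of `he_row2`. -/
theorem he_num2 {eps0 K1 : ℝ} (he : 0 < eps0) (hK1 : 4 ≤ eps0 * K1) : ∀ᶠ m : ℕ in atTop,
    ∀ J : ℕ, K1 * m ^ 2 * 2 ^ m ≤ (J : ℝ) + 1 →
      (Par.thm m 0 / 2)⁻¹ * (1 / 2 ^ (10 * m) + (m : ℝ) ^ 2 / ((J : ℝ) + 1)) ≤ eps0 := by
  have h1 : Tendsto (fun m : ℕ => (1 / 2 : ℝ) ^ m) atTop (nhds 0) :=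
    tendsto_pow_atTop_nhds_zero_of_lt_one (by norm_num) (by norm_num)
  filter_upwards [h1.eventually (ge_mem_nhds (show (0 : ℝ) < eps0 / 4 by positivity)),
    eventually_ge_atTop 1] with m hm hm1 J hJ
  have hK0 : 0 < K1 := by
    by_contra h
    have : eps0 * K1 ≤ 0 := mul_nonpos_of_nonneg_of_nonpos he.le (not_lt.1 h)
    linarith
  have e1 : (Par.thm m 0 / 2)⁻¹ = 2 * 2 ^ m := by
    unfold Par.thm
    rw [pow_zero, mul_one, one_div, inv_pow, inv_div, div_inv_eq_mul]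
  rw [e1]
  have h2 : 2 * (2 : ℝ) ^ m * (1 / 2 ^ (10 * m)) ≤ eps0 / 2 := by
    have h3 : (1 : ℝ) / 2 ^ (10 * m) ≤ (1 / 2) ^ (2 * m) := by
      rw [one_div_pow]
      exact one_div_le_one_div_of_le (by positivity) (pow_le_pow_right₀ (by norm_num) (by omega))
    have h4 : 2 * (2 : ℝ) ^ m * (1 / 2) ^ (2 * m) = 2 * (1 / 2) ^ m := by
      rw [two_mul m, pow_add]
      have : (2 : ℝ) ^ m * (1 / 2) ^ m = 1 := by rw [← mul_pow]; norm_num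
      calc 2 * (2 : ℝ) ^ m * ((1 / 2) ^ m * (1 / 2) ^ m) =
          2 * ((2 : ℝ) ^ m * (1 / 2) ^ m) * (1 / 2) ^ m := by ring
        _ = _ := by rw [this]; ring
    have h5 := mul_le_mul_of_nonneg_left h3 (by positivity : (0 : ℝ) ≤ 2 * 2 ^ m)
    rw [h4] at h5
    linarith
  have h6 : 2 * (2 : ℝ) ^ m * ((m : ℝ) ^ 2 / ((J : ℝ) + 1)) ≤ eps0 / 2 := by
    have hJ0 : (0 : ℝ) < (J : ℝ) + 1 := by positivity
    rw [← mul_div_assoc, div_le_iff₀ hJ0]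
    have h7 : eps0 / 2 * (K1 * m ^ 2 * 2 ^ m) ≤ eps0 / 2 * ((J : ℝ) + 1) :=
      mul_le_mul_of_nonneg_left hJ (by positivity)
    have h8 : 2 * ((m : ℝ) ^ 2 * 2 ^ m) ≤ eps0 * K1 / 2 * ((m : ℝ) ^ 2 * 2 ^ m) :=
      mul_le_mul_of_nonneg_right (by linarith) (by positivity)
    calc 2 * (2 : ℝ) ^ m * (m : ℝ) ^ 2 = 2 * ((m : ℝ) ^ 2 * 2 ^ m) := by ring
      _ ≤ eps0 * K1 / 2 * ((m : ℝ) ^ 2 * 2 ^ m) := h8
      _ = eps0 / 2 * (K1 * m ^ 2 * 2 ^ m) := by ring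
      _ ≤ _ := h7
  rw [mul_add]
  linarith

/-- Few classes: the terms of the class path are small. -/
theorem cls_num {δ : ℝ} (hδ : 0 < δ) : ∃ a1 : ℕ, ∀ a0 : ℕ, a1 ≤ a0 → ∀ n Kc : ℕ,
    a0 * (Kc + 1) ≤ n → Kc * Real.log 2 + √(2 * n * (Kc * Real.log 2)) ≤ δ * n ∧
      ((Kc : ℝ) + 1) ≤ δ * n := by
  obtain ⟨a1, ha1⟩ := exists_nat_gt (2 / δ + 8 / δ ^ 2)
  refine ⟨a1, fun a0 ha0 n Kc hn => ?_⟩
  have h1 : (2 / δ + 8 / δ ^ 2) * ((Kc : ℝ) + 1) ≤ n := by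
    have h2 : (2 / δ + 8 / δ ^ 2 : ℝ) ≤ a0 := ha1.le.trans (by exact_mod_cast ha0)
    have h3 : (a0 : ℝ) * ((Kc : ℝ) + 1) ≤ n := by exact_mod_cast hn
    exact (mul_le_mul_of_nonneg_right h2 (by positivity)).trans h3
  have hK : (0 : ℝ) ≤ (Kc : ℝ) := Nat.cast_nonneg _
  have h3 : 0 < 2 / δ := by positivity
  have h4 : 0 < 8 / δ ^ 2 := by positivity
  have h5 : 2 / δ * ((Kc : ℝ) + 1) ≤ n := by nlinarith
  have h6 : 8 / δ ^ 2 * ((Kc : ℝ) + 1) ≤ n := by nlinarith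
  have h7 : (Kc : ℝ) + 1 ≤ δ * n / 2 := by
    have := mul_le_mul_of_nonneg_left h5 (by positivity : 0 ≤ δ / 2)
    have e : δ / 2 * (2 / δ * ((Kc : ℝ) + 1)) = (Kc : ℝ) + 1 := by field_simp
    rw [e] at this
    linarith
  have h8 : 8 * ((Kc : ℝ) + 1) ≤ δ ^ 2 * n := by
    have := mul_le_mul_of_nonneg_left h6 (by positivity : 0 ≤ δ ^ 2)
    have e : δ ^ 2 * (8 / δ ^ 2 * ((Kc : ℝ) + 1)) = 8 * ((Kc : ℝ) + 1) := by field_simp
    rwa [e] at this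
  have hl : Real.log 2 ≤ 1 := by
    have := Real.log_two_lt_d9
    linarith
  have hl0 : 0 ≤ Real.log 2 := Real.log_nonneg (by norm_num)
  have hn0 : (0 : ℝ) ≤ n := Nat.cast_nonneg _
  refine ⟨?_, by nlinarith⟩
  have h9 : (Kc : ℝ) * Real.log 2 ≤ Kc := by nlinarith
  have h10 : √(2 * n * (Kc * Real.log 2)) ≤ δ * n / 2 := by
    apply Real.sqrt_le_iff.2 ⟨by positivity, ?_⟩
    have h11 : 2 * (n : ℝ) * (Kc * Real.log 2) ≤ 2 * n * Kc :=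
      mul_le_mul_of_nonneg_left h9 (by positivity)
    have h12 : n * (8 * ((Kc : ℝ) + 1)) ≤ n * (δ ^ 2 * n) := mul_le_mul_of_nonneg_left h8 hn0
    nlinarith
  linarith

end Vale.Agent.P315.H846
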