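import Vale.Agent.P315.H846.Mk
import Vale.Agent.P315.H869.Units

/-! Milestone 2: the units that are not good have a small share of the mass. -/

set_option autoImplicit false

open Finset

namespace Vale.Agent.P315.H846

open Vale.Agent.P315.C Vale.Agent.P315.Acc
open Vale.Agent.P315.H95
open Vale.Agent.P315.H869.Units (Light light_share_le mass_add)
open Vale.Agent.P315.H808 (Chain Along)

variable {m w0 Kc n κr : ℕ} {S0 pos : ℕ → ℕ}

/-- Sum over the rows of a weight times an indicator which depends on the unit and the top. -/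
theorem sum_ind_unit (m n : ℕ) (S0 : ℕ → ℕ) {j e : ℕ} (hje : j + e ≤ n) (P : ℕ → ℕ → Prop) :
    ∑ x ∈ range ((2 ^ m) ^ n),
        (S0 x : ℝ) * ind (P (x / (2 ^ m) ^ (j + e)) (x / (2 ^ m) ^ j)) =
      ∑ i ∈ range ((2 ^ m) ^ (n - (j + e))), ∑ r ∈ range ((2 ^ m) ^ e),
        (mass m S0 j (i * (2 ^ m) ^ e + r) : ℝ) * ind (P i (i * (2 ^ m) ^ e + r)) := by
  have hT : 0 < (2 ^ m) ^ j := by positivity
  have hK : 0 < (2 ^ m) ^ e := by positivity
  have hn : (2 ^ m) ^ n = (2 ^ m) ^ (n - (j + e)) * ((2 ^ m) ^ e * (2 ^ m) ^ j) := by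
    rw [← pow_add, ← pow_add]
    congr 1
    omega
  rw [hn, sum_range_mul_add]
  refine sum_congr rfl fun i _ => ?_
  rw [sum_range_mul_add]
  refine sum_congr rfl fun r hr => ?_
  have hr' := mem_range.1 hr
  unfold mass
  push_cast
  rw [sum_mul]
  refine sum_congr rfl fun r' hr2 => ?_
  have hr2' := mem_range.1 hr2
  have e1 : (i * ((2 ^ m) ^ e * (2 ^ m) ^ j) + (r * (2 ^ m) ^ j + r')) / (2 ^ m) ^ j =
      i * (2 ^ m) ^ e + r := by
    rw [show i * ((2 ^ m) ^ e * (2 ^ m) ^ j) + (r * (2 ^ m) ^ j + r') =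
      (2 ^ m) ^ j * (i * (2 ^ m) ^ e + r) + r' by ring, Nat.mul_add_div hT,
      Nat.div_eq_of_lt hr2', add_zero]
  have e2 : (i * ((2 ^ m) ^ e * (2 ^ m) ^ j) + (r * (2 ^ m) ^ j + r')) / (2 ^ m) ^ (j + e) =
      i := by
    rw [pow_add, ← Nat.div_div_eq_div_mul, e1,
      show i * (2 ^ m) ^ e + r = (2 ^ m) ^ e * i + r by ring, Nat.mul_add_div hK,
      Nat.div_eq_of_lt hr', add_zero]
  rw [e1, e2, show i * ((2 ^ m) ^ e * (2 ^ m) ^ j) + (r * (2 ^ m) ^ j + r') =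
    (i * (2 ^ m) ^ e + r) * (2 ^ m) ^ j + r' by ring]

/-- **(U3)** The light units have a small share of the mass of all rows. -/
theorem EE_light_le (h : PathOK m w0 Kc n κr S0 pos) {j e : ℕ} (hj : j + e < n) :
    EE (fun x : Fin ((2 ^ m) ^ n) => (S0 x : ℝ)) (fun x =>
      ind (Light m e (cl (lab m w0 S0 pos n κr (j + e) (x.val / (2 ^ m) ^ (j + e))))
        (lab m w0 S0 pos n κr j (x.val / (2 ^ m) ^ j)))) ≤ 8 / (((2 : ℝ) ^ m) ^ e) ^ 3 := by
  set P : ℕ → ℕ → Prop := fun i u => Light m e (cl (lab m w0 S0 pos n κr (j + e) i))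
    (lab m w0 S0 pos n κr j u) with hP
  have hpos : (0 : ℝ) < ∑ x : Fin ((2 ^ m) ^ n), (S0 x.val : ℝ) := by
    have hne : Nonempty (Fin ((2 ^ m) ^ n)) := ⟨⟨0, by positivity⟩⟩
    refine sum_pos (fun x _ => ?_) univ_nonempty
    exact_mod_cast lt_of_lt_of_le h.w0_pos (h.le_S0 x)
  unfold EE
  rw [div_le_iff₀ hpos]
  have e1 : ∑ x : Fin ((2 ^ m) ^ n), (S0 x.val : ℝ) * ind (P (x.val / (2 ^ m) ^ (j + e))
      (x.val / (2 ^ m) ^ j)) = _ :=
    (Fin.sum_univ_eq_sum_range (fun x => (S0 x : ℝ) * ind (P (x / (2 ^ m) ^ (j + e))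
      (x / (2 ^ m) ^ j))) _).trans (sum_ind_unit m n S0 hj.le P)
  have e2 : ∑ x : Fin ((2 ^ m) ^ n), (S0 x.val : ℝ) =
      ∑ i ∈ range ((2 ^ m) ^ (n - (j + e))), (mass m S0 (j + e) i : ℝ) := by
    have h1 := sum_ind_unit m n S0 hj.le (fun _ _ => True)
    simp only [ind_true trivial, mul_one] at h1
    rw [Fin.sum_univ_eq_sum_range (fun x => (S0 x : ℝ)), h1]
    refine sum_congr rfl fun i _ => ?_
    rw [mass_add]
    push_cast
    rfl
  refine (le_of_eq e1).trans ?_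
  rw [e2, mul_sum]
  refine sum_le_sum fun i hi => ?_
  have h1 := light_share_le (pos := pos) h hj (mem_range.1 hi)
  refine le_trans (le_of_eq ?_) h1
  rw [Nat.cast_sum, sum_filter]
  refine sum_congr rfl fun r _ => ?_
  by_cases hl : P i (i * (2 ^ m) ^ e + r)
  · rw [ind_true hl, if_pos hl, mul_one]
  · rw [ind_false hl, if_neg hl, mul_zero]

/-- The unit above the row `x` in the top number `a` of the scale `s` is good: it is not light, or
the top is the root. -/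
def goodU (m n : ℕ) (L : ℕ → ℕ → ℕ) (s a : ℕ) (x : Fin ((2 ^ m) ^ n)) : Prop :=
  (a + 1) * 2 ^ s = n ∨ ¬ Light m (2 ^ s)
    (cl (L ((a + 1) * 2 ^ s) (x.val / (2 ^ m) ^ ((a + 1) * 2 ^ s))))
    (L (a * 2 ^ s) (x.val / (2 ^ m) ^ (a * 2 ^ s)))

theorem sum_geom_le {r : ℝ} (hr2 : 2 ≤ r) (S : ℕ) :
    ∑ s ∈ Icc 1 S, 1 / r ^ 2 ^ s ≤ 1 / r := by
  have hr0 : 0 < r := by linarith
  have h1 : ∀ S : ℕ, ∑ s ∈ Icc 1 S, 1 / r ^ 2 ^ s ≤ 1 / r * (1 - 1 / 2 ^ S) := by
    intro S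
    induction S with
    | zero => simp
    | succ S ih =>
      rw [sum_Icc_succ_top (by omega)]
      have h2 : 1 / r ^ 2 ^ (S + 1) ≤ 1 / r * (1 / 2 ^ (S + 1)) := by
        have h3 : S + 2 ≤ 2 ^ (S + 1) := by
          have := @Nat.lt_two_pow_self (S + 1)
          omega
        have hr : 1 ≤ r := by linarith
        have h4 : r * 2 ^ (S + 1) ≤ r ^ 2 ^ (S + 1) := by
          calc r * 2 ^ (S + 1) ≤ r * r ^ (S + 1) := by gcongr
            _ = r ^ (S + 2) := by ring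
            _ ≤ _ := pow_le_pow_right₀ hr h3
        rw [one_div_mul_one_div]
        exact one_div_le_one_div_of_le (by positivity) h4
      have hr : 1 ≤ r := by linarith
      have h5 : (1 : ℝ) / 2 ^ S = 2 * (1 / 2 ^ (S + 1)) := by
        rw [pow_succ]; field_simp
      have h6 : 1 / r * (1 - 1 / 2 ^ (S + 1)) = 1 / r * (1 - 1 / 2 ^ S) +
          1 / r * (1 / 2 ^ (S + 1)) := by
        rw [h5]; ring
      rw [h6]
      exact add_le_add ih h2
  refine (h1 S).trans ?_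
  have : (0 : ℝ) < 1 / 2 ^ S := by positivity
  have h2 : 0 < 1 / r := by positivity
  nlinarith

section

variable {ℓ μ B J S H D1 Cn q : ℕ} {mc : C.Mach} {N : ℤ} {vis hid : Leaf}
  {C : Chain (clsPar m ℓ μ B w0 J S H (Kc + 3) D1) vis hid n}
  [Nonempty (Fin ((q2 m ℓ μ B w0 J S H Kc D1 mc n N Cn q).P.M ^
    (q2 m ℓ μ B w0 J S H Kc D1 mc n N Cn q).n))]

/-- **Mass of the units that are not good.** -/
theorem bad_sum (hI : Inst2 (clsPar m ℓ μ B w0 J S H (Kc + 3) D1) m w0 Kc κr vis hid n S0 C)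
    (K : Cut2 (q2 m ℓ μ B w0 J S H Kc D1 mc n N Cn q) C) (hm : 0 < m)
    (w : (q2 m ℓ μ B w0 J S H Kc D1 mc n N Cn q).Seed) :
    ∑ s ∈ Icc 1 K.smax, 2 ^ s * H295.TA (K.sys w) s
      (fun a x => ind (¬ goodU m n C.lab s a x)) ≤ 8 * n / (2 ^ m) ^ 3 := by
  have hM2 : (2 : ℝ) ≤ 2 ^ m := by
    calc (2 : ℝ) = 2 ^ 1 := by norm_num
      _ ≤ 2 ^ m := pow_le_pow_right₀ (by norm_num) hm
  have hne : Nonempty (Fin ((2 ^ m) ^ n)) := ⟨⟨0, by positivity⟩⟩
  have hw : ∀ x : Fin ((2 ^ m) ^ n), (0 : ℝ) < S0 x := fun x => by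
    exact_mod_cast lt_of_lt_of_le hI.path.w0_pos (hI.path.le_S0 x)
  have hE : ∀ f : Fin ((2 ^ m) ^ n) → ℝ, (K.sys w).E f =
      EE (fun x : Fin ((2 ^ m) ^ n) => (S0 x : ℝ)) f := by
    intro f
    show EE (fun x : Fin ((2 ^ m) ^ n) => C.w x) f = _
    congr 1
    funext x
    exact hI.w x
  have key : ∀ s ∈ Icc 1 K.smax, 2 ^ s * H295.TA (K.sys w) s
      (fun a x => ind (¬ goodU m n C.lab s a x)) ≤
      8 * n * (1 / (((2 : ℝ) ^ m) ^ 3) ^ 2 ^ s) := by
    intro s _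
    have h2 : ∀ a ∈ range (n / 2 ^ s), (K.sys w).E (fun x => ind (¬ goodU m n C.lab s a x)) ≤
        8 / (((2 : ℝ) ^ m) ^ 2 ^ s) ^ 3 := by
      intro a ha
      have ha' := mem_range.1 ha
      have hs : (a + 1) * 2 ^ s ≤ n := (Nat.mul_le_mul_right _ ha').trans (Nat.div_mul_le_self _ _)
      refine (hE (fun x => ind (¬ goodU m n C.lab s a x))).le.trans ?_
      rcases Nat.lt_or_ge ((a + 1) * 2 ^ s) n with h3 | h3
      · have e1 : a * 2 ^ s + 2 ^ s = (a + 1) * 2 ^ s := by ring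
        have h4 := EE_light_le (j := a * 2 ^ s) (e := 2 ^ s) hI.path (by rw [e1]; exact h3)
        refine (EE_mono hw fun x => ind_mono ?_).trans h4
        intro hb
        rw [e1]
        by_contra hc
        refine hb (Or.inr ?_)
        rw [hI.lab, hI.lab]
        exact hc
      · have e2 : ∀ x : Fin ((2 ^ m) ^ n), ind (¬ goodU m n C.lab s a x) = 0 :=
          fun x => ind_false (not_not.2 (Or.inl (le_antisymm hs h3)))
        have e3 : EE (fun x : Fin ((2 ^ m) ^ n) => (S0 x : ℝ))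
            (fun x => ind (¬ goodU m n C.lab s a x)) = 0 := by
          unfold EE
          have e4 : ∀ x ∈ (univ : Finset (Fin ((2 ^ m) ^ n))),
              (S0 x.val : ℝ) * ind (¬ goodU m n C.lab s a x) = 0 := fun x _ => by
            rw [e2, mul_zero]
          exact (congrArg (· / _) (sum_eq_zero e4)).trans (zero_div _)
        rw [e3]
        positivity
    have h3 : H295.TA (K.sys w) s (fun a x => ind (¬ goodU m n C.lab s a x)) ≤
        (n / 2 ^ s : ℕ) * (8 / (((2 : ℝ) ^ m) ^ 2 ^ s) ^ 3) := by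
      refine (sum_le_sum h2).trans (le_of_eq ?_)
      rw [sum_const, card_range, nsmul_eq_mul]
    have h4 : (2 : ℝ) ^ s * (n / 2 ^ s : ℕ) ≤ n := by
      have := Nat.div_mul_le_self n (2 ^ s)
      have h5 : ((n / 2 ^ s * 2 ^ s : ℕ) : ℝ) ≤ n := by exact_mod_cast this
      push_cast at h5
      linarith
    calc _ ≤ 2 ^ s * ((n / 2 ^ s : ℕ) * (8 / (((2 : ℝ) ^ m) ^ 2 ^ s) ^ 3)) := by gcongr
      _ = (2 ^ s * (n / 2 ^ s : ℕ)) * (8 / (((2 : ℝ) ^ m) ^ 2 ^ s) ^ 3) := by ring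
      _ ≤ n * (8 / (((2 : ℝ) ^ m) ^ 2 ^ s) ^ 3) := by gcongr
      _ = 8 * n * (1 / (((2 : ℝ) ^ m) ^ 3) ^ 2 ^ s) := by
        rw [pow_right_comm (((2 : ℝ) ^ m)) (2 ^ s) 3]
        ring
  refine (sum_le_sum key).trans ?_
  rw [← mul_sum]
  have h5 : (2 : ℝ) ≤ ((2 : ℝ) ^ m) ^ 3 := by nlinarith [sq_nonneg ((2 : ℝ) ^ m - 2)]
  have h6 := sum_geom_le h5 K.smax
  calc _ ≤ 8 * (n : ℝ) * (1 / ((2 : ℝ) ^ m) ^ 3) := by gcongr
    _ = _ := by ring

/-- Share of the tops at the root. -/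
theorem root_sum (K : Cut2 (q2 m ℓ μ B w0 J S H Kc D1 mc n N Cn q) C)
    (w : (q2 m ℓ μ B w0 J S H Kc D1 mc n N Cn q).Seed) :
    ∑ s ∈ Icc 1 K.smax, 2 ^ s * H295.TA (K.sys w) s
      (fun a _ => ind ((a + 1) * 2 ^ s = n)) ≤ 2 ^ (K.smax + 1) := by
  have hne : Nonempty (Fin ((2 ^ m) ^ n)) := ⟨⟨0, by positivity⟩⟩
  have key : ∀ s ∈ Icc 1 K.smax, 2 ^ s * H295.TA (K.sys w) s
      (fun a _ => ind ((a + 1) * 2 ^ s = n)) ≤ (2 : ℝ) ^ s := by
    intro s _
    have h1 : H295.TA (K.sys w) s (fun a _ => ind ((a + 1) * 2 ^ s = n)) ≤ 1 := by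
      have h2 : ∀ a ∈ range ((K.sys w).na s), (K.sys w).E (fun _ => ind ((a + 1) * 2 ^ s = n)) =
          ind ((a + 1) * 2 ^ s = n) := fun a _ => EE_const (K.sys w).hw _
      unfold H295.TA
      rw [sum_congr rfl h2]
      have h3 : ∀ a ∈ range ((K.sys w).na s), ind ((a + 1) * 2 ^ s = n) ≤
          if a = n / 2 ^ s - 1 then (1 : ℝ) else 0 := by
        intro a _
        by_cases h : (a + 1) * 2 ^ s = n
        · have h4 : n / 2 ^ s = a + 1 := by
            rw [← h]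
            exact Nat.mul_div_cancel _ (by positivity)
          rw [ind_true h, if_pos (by omega)]
        · rw [ind_false h]
          split_ifs <;> norm_num
      refine (sum_le_sum h3).trans ?_
      rw [sum_ite_eq']
      split_ifs <;> norm_num
    calc _ ≤ (2 : ℝ) ^ s * 1 := by gcongr
      _ = _ := mul_one _
  refine (sum_le_sum key).trans ?_
  have : ∀ S : ℕ, ∑ s ∈ Icc 1 S, (2 : ℝ) ^ s ≤ 2 ^ (S + 1) := by
    intro S
    induction S with
    | zero => simp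
    | succ S ih =>
      rw [sum_Icc_succ_top (by omega)]
      have : (2 : ℝ) ^ (S + 1 + 1) = 2 ^ (S + 1) + 2 ^ (S + 1) := by ring
      linarith
  exact this _

end

end Vale.Agent.P315.H846
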