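import Mathlib

/-!
# Truncated entropy and the concentration lemma (P315, multi-scale accounting, step (F3))

`psi A q = min A (log (1/q))` and `Psi A p` its primitive vanishing at `0`.  The tangent line
inequality at `p`, with a gain `nu / 2` at every point `nu` which is much larger than `p` and not
too small, gives the concentration lemma by averaging.
-/

namespace Vale.Agent.P315.H846

open Real

/-- The truncated logarithm. -/
noncomputable def psi (A q : ℝ) : ℝ := if q ≤ exp (-A) then A else -log q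

/-- The primitive of `psi A` which vanishes at `0`. -/
noncomputable def Psi (A p : ℝ) : ℝ :=
  if p ≤ exp (-A) then A * p else p - p * log p - exp (-A)

theorem psi_nonneg {A q : ℝ} (hA : 0 ≤ A) (hq : q ≤ 1) : 0 ≤ psi A q := by
  unfold psi
  split_ifs with h
  · exact hA
  · have h0 : 0 < q := lt_trans (exp_pos _) (not_le.mp h)
    have := log_nonpos h0.le hq
    linarith

theorem psi_le {A q : ℝ} : psi A q ≤ A := by
  unfold psi
  split_ifs with h
  · exact le_rfl
  · have h1 := not_le.mp h
    have := (lt_log_iff_exp_lt (lt_trans (exp_pos _) h1)).mpr h1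
    linarith

/-- `y log y - y + 1 ≥ 0`. -/
theorem mul_log_ge {y : ℝ} (hy : 0 < y) : y - 1 ≤ y * log y := by
  have h := log_le_sub_one_of_pos (inv_pos.mpr hy)
  rw [log_inv] at h
  have h2 : y * (-log y) ≤ y * (y⁻¹ - 1) := mul_le_mul_of_nonneg_left h hy.le
  have h3 : y * (y⁻¹ - 1) = 1 - y := by field_simp
  nlinarith

/-- The gain in the tangent line inequality. -/
theorem tangent {A p v : ℝ} (_hA : 0 ≤ A) (_hp : 0 ≤ p) (_hv : 0 ≤ v) :
    Psi A v ≤ Psi A p + psi A p * (v - p) := by
  unfold Psi psi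
  have hE := exp_pos (-A)
  by_cases h1 : p ≤ exp (-A) <;> by_cases h2 : v ≤ exp (-A)
  · simp only [h1, h2, if_true]; linarith
  · simp only [h1, h2, if_true, if_false]
    have h2' := not_le.mp h2
    have hv0 : 0 < v := lt_trans hE h2'
    have hy : 0 < v * exp A := by positivity
    have h := mul_log_ge hy
    rw [log_mul hv0.ne' (exp_pos A).ne', log_exp] at h
    have hEE : exp A * exp (-A) = 1 := by rw [← exp_add]; simp
    have h3 : (v * exp A - 1) * exp (-A) ≤ (v * exp A * (log v + A)) * exp (-A) :=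
      mul_le_mul_of_nonneg_right h hE.le
    have e1 : (v * exp A - 1) * exp (-A) = v - exp (-A) := by
      calc (v * exp A - 1) * exp (-A) = v * (exp A * exp (-A)) - exp (-A) := by ring
        _ = v - exp (-A) := by rw [hEE]; ring
    have e2 : (v * exp A * (log v + A)) * exp (-A) = v * (log v + A) := by
      calc (v * exp A * (log v + A)) * exp (-A) = v * (log v + A) * (exp A * exp (-A)) := by ring
        _ = v * (log v + A) := by rw [hEE]; ring
    rw [e1, e2] at h3
    nlinarith
  · simp only [h1, h2, if_true, if_false]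
    have h1' := not_le.mp h1
    have hp0 : 0 < p := lt_trans hE h1'
    have hlog : -A < log p := (lt_log_iff_exp_lt hp0).mpr h1'
    -- p - e^{-A} - v (log p + A) ≥ 0
    have hy : 0 < p * exp A := by positivity
    have h := log_le_sub_one_of_pos hy
    rw [log_mul hp0.ne' (exp_pos A).ne', log_exp] at h
    have hEE : exp A * exp (-A) = 1 := by rw [← exp_add]; simp
    have h3 : (log p + A) * exp (-A) ≤ (p * exp A - 1) * exp (-A) :=
      mul_le_mul_of_nonneg_right h hE.le
    have e1 : (p * exp A - 1) * exp (-A) = p - exp (-A) := by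
      calc (p * exp A - 1) * exp (-A) = p * (exp A * exp (-A)) - exp (-A) := by ring
        _ = p - exp (-A) := by rw [hEE]; ring
    rw [e1] at h3
    have h4 : v * (log p + A) ≤ exp (-A) * (log p + A) :=
      mul_le_mul_of_nonneg_right h2 (by linarith)
    nlinarith
  · simp only [h1, h2, if_false]
    have hp0 : 0 < p := lt_trans hE (not_le.mp h1)
    have hv0 : 0 < v := lt_trans hE (not_le.mp h2)
    have hy : 0 < v / p := by positivity
    have h := mul_log_ge hy
    rw [log_div hv0.ne' hp0.ne'] at h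
    have h3 : (v / p - 1) * p ≤ (v / p * (log v - log p)) * p :=
      mul_le_mul_of_nonneg_right h hp0.le
    have e1 : (v / p - 1) * p = v - p := by field_simp
    have e2 : (v / p * (log v - log p)) * p = v * (log v - log p) := by field_simp
    rw [e1, e2] at h3
    nlinarith

/-- The tangent line inequality with gain `v / 2`, for `v` much larger than `p`. -/
theorem tangent_gain {A p v Lam : ℝ} (_hA : 0 ≤ A) (hp : 0 ≤ p) (hL : exp (3 / 2) ≤ Lam)
    (h1 : Lam * p ≤ v) (h2 : exp (3 - A) ≤ v) :
    Psi A v ≤ Psi A p + psi A p * (v - p) - v / 2 := by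
  have hE := exp_pos (-A)
  have hv0 : 0 < v := lt_of_lt_of_le (exp_pos _) h2
  have hlv : 3 - A ≤ log v := (le_log_iff_exp_le hv0).mpr h2
  have hvE : ¬ v ≤ exp (-A) := by
    have : exp (-A) < exp (3 - A) := exp_lt_exp.mpr (by linarith)
    exact not_le.mpr (lt_of_lt_of_le this h2)
  unfold Psi psi
  by_cases h : p ≤ exp (-A)
  · simp only [h, hvE, if_true, if_false]
    nlinarith
  · simp only [h, hvE, if_false]
    have hp0 : 0 < p := lt_trans hE (not_le.mp h)
    have hlog : 3 / 2 + log p ≤ log v := by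
      have h3 : exp (3 / 2) * p ≤ v := le_trans (mul_le_mul_of_nonneg_right hL hp) h1
      have h4 := log_le_log (by positivity) h3
      rwa [log_mul (exp_pos _).ne' hp0.ne', log_exp] at h4
    nlinarith

theorem Psi_nonneg {A p : ℝ} (hA : 0 ≤ A) (hp : 0 ≤ p) (hp1 : p ≤ 1) : 0 ≤ Psi A p := by
  have h := tangent (p := p) (v := 0) hA hp le_rfl
  have h0 : Psi A 0 = 0 := by unfold Psi; simp [(exp_pos (-A)).le]
  have h2 := psi_nonneg (q := p) hA hp1
  rw [h0] at h
  nlinarith

theorem Psi_le {A p : ℝ} (hA : 0 ≤ A) (hp : 0 ≤ p) : Psi A p ≤ A * p := by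
  have h := tangent (p := 0) (v := p) hA le_rfl hp
  have h0 : Psi A 0 = 0 := by unfold Psi; simp [(exp_pos (-A)).le]
  have h1 : psi A 0 = A := by unfold psi; simp [(exp_pos (-A)).le]
  rw [h0, h1] at h
  linarith

/-- `Psi` is nondecreasing on `[0, 1]` and `A`-Lipschitz from above. -/
theorem Psi_sub_le {A p r : ℝ} (hA : 0 ≤ A) (hp : 0 ≤ p) (hr : 0 ≤ r) (hr1 : r ≤ 1) :
    Psi A p - Psi A r ≤ A * max (p - r) 0 := by
  have h := tangent (p := r) (v := p) hA hr hp
  have h1 := psi_nonneg (q := r) hA hr1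
  have h2 := psi_le (A := A) (q := r)
  rcases le_total r p with h3 | h3
  · rw [max_eq_left (by linarith)]
    nlinarith
  · rw [max_eq_right (by linarith)]
    nlinarith

theorem Psi_mono {A p r : ℝ} (hA : 0 ≤ A) (hp : 0 ≤ p) (hpr : p ≤ r) (hr1 : r ≤ 1) :
    Psi A p ≤ Psi A r := by
  have h := Psi_sub_le (A := A) hA hp (hp.trans hpr) hr1
  rw [max_eq_right (by linarith)] at h
  linarith

/-- **Weighted concentration inequality.**  `w` are nonnegative weights of total mass one, `v i`
nonnegative, `p` their mean; the mass of the excess entries (at least `Lam * p` and at least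
`exp (3 - A)`) is at most twice the entropy increment. -/
theorem conc_weighted {ι : Type*} (s : Finset ι) (w v : ι → ℝ) {A Lam p : ℝ} (hA : 0 ≤ A)
    (hL : exp (3 / 2) ≤ Lam) (hw : ∀ i ∈ s, 0 ≤ w i) (hw1 : ∑ i ∈ s, w i = 1)
    (hv : ∀ i ∈ s, 0 ≤ v i) (hp : ∑ i ∈ s, w i * v i = p)
    (exc : ι → Prop) [DecidablePred exc]
    (hexc : ∀ i ∈ s, exc i → Lam * p ≤ v i ∧ exp (3 - A) ≤ v i) :
    ∑ i ∈ s, w i * (if exc i then v i else 0) ≤ 2 * (Psi A p - ∑ i ∈ s, w i * Psi A (v i)) := by
  have hp0 : 0 ≤ p := hp ▸ Finset.sum_nonneg fun i hi => mul_nonneg (hw i hi) (hv i hi)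
  have key : ∀ i ∈ s, w i * Psi A (v i) ≤
      w i * Psi A p + psi A p * (w i * v i) - psi A p * p * w i
        - w i * (if exc i then v i else 0) / 2 := by
    intro i hi
    have hwi := hw i hi
    by_cases he : exc i
    · obtain ⟨h1, h2⟩ := hexc i hi he
      have h := tangent_gain (A := A) (p := p) (v := v i) hA hp0 hL h1 h2
      have h3 := mul_le_mul_of_nonneg_left h hwi
      simp only [he, if_true]
      linarith
    · have h := tangent (A := A) (p := p) (v := v i) hA hp0 (hv i hi)
      have h3 := mul_le_mul_of_nonneg_left h hwi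
      simp only [he, if_false]
      linarith
  have hsum := Finset.sum_le_sum key
  have e : ∑ i ∈ s, (w i * Psi A p + psi A p * (w i * v i) - psi A p * p * w i
        - w i * (if exc i then v i else 0) / 2)
      = Psi A p - (∑ i ∈ s, w i * (if exc i then v i else 0)) / 2 := by
    rw [Finset.sum_sub_distrib, Finset.sum_sub_distrib, Finset.sum_add_distrib,
      ← Finset.sum_mul, ← Finset.mul_sum, ← Finset.mul_sum, hw1, hp, ← Finset.sum_div]
    ring
  rw [e] at hsum
  linarith

/-- **Concentration inequality for a uniform average over a nonempty finite type.** -/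
theorem conc_avg {ι : Type*} [Fintype ι] [Nonempty ι] (v : ι → ℝ) {A Lam p : ℝ} (hA : 0 ≤ A)
    (hL : exp (3 / 2) ≤ Lam) (hv : ∀ i, 0 ≤ v i)
    (hp : (∑ i, v i) / (Fintype.card ι : ℝ) = p)
    (exc : ι → Prop) [DecidablePred exc]
    (hexc : ∀ i, exc i → Lam * p ≤ v i ∧ exp (3 - A) ≤ v i) :
    (∑ i, if exc i then v i else 0) / (Fintype.card ι : ℝ) ≤
      2 * (Psi A p - (∑ i, Psi A (v i)) / (Fintype.card ι : ℝ)) := by
  have hc : (0 : ℝ) < Fintype.card ι := by exact_mod_cast Fintype.card_pos
  have h := conc_weighted (Finset.univ) (fun _ : ι => 1 / (Fintype.card ι : ℝ)) v (A := A)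
    (Lam := Lam) (p := p) hA hL (fun i _ => by positivity)
    (by rw [Finset.sum_const, Finset.card_univ, nsmul_eq_mul]; field_simp)
    (fun i _ => hv i)
    (by rw [← Finset.mul_sum, ← hp]; ring) exc (fun i _ he => hexc i he)
  rw [← Finset.mul_sum, ← Finset.mul_sum] at h
  calc (∑ i, if exc i then v i else 0) / (Fintype.card ι : ℝ)
      = 1 / (Fintype.card ι : ℝ) * ∑ i, (if exc i then v i else 0) := by ring
    _ ≤ _ := h
    _ = _ := by ring

/-- The numerical condition on `Lam`: `5 ≤ Lam` suffices. -/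
theorem exp_three_half_le {Lam : ℝ} (hL : 5 ≤ Lam) : exp (3 / 2) ≤ Lam := by
  have h1 : exp (1 : ℝ) < 2.7182818286 := exp_one_lt_d9
  have h2 : exp (3 / 2 : ℝ) ^ 2 = exp 1 ^ 3 := by
    rw [← exp_nat_mul, ← exp_nat_mul]; norm_num
  have h3 : exp (1 : ℝ) ^ 3 ≤ 2.7182818286 ^ 3 :=
    pow_le_pow_left₀ (exp_pos _).le h1.le 3
  have h4 : exp (3 / 2 : ℝ) ^ 2 ≤ 5 ^ 2 := by
    rw [h2]; exact h3.trans (by norm_num)
  have h5 : exp (3 / 2 : ℝ) ≤ 5 := abs_le_of_sq_le_sq' h4 (by norm_num) |>.2
  exact h5.trans hL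

end Vale.Agent.P315.H846
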