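import Vale.Agent.P315.H846.Bad

/-! Milestone 2: `Good2` from the rows (machine inequality below the root, heavy blocks,
capacities, failures), the area half and the numbers. -/

set_option autoImplicit false

open Finset Filter

namespace Vale.Agent.P315.H846

open Vale.Agent.P315.C Vale.Agent.P315.H659 Vale.Agent.P315.H731 Vale.Agent.P315.Acc
open Vale.Agent.P315.H95
open Vale.Agent.P315.H808 (Chain Along)

/-- What the machines give, for one instance: machines `R`, thresholds `P`, the machine inequality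
for the tops below the root, and the error terms. -/
def RowsOK2 (eps0 CL : ℝ) (m : ℕ) (CA FA : ℝ) {Q : QPar} {vis hid : Leaf}
    {C : Chain Q.P vis hid Q.n} (K : Cut2 Q C) [Nonempty (Fin (Q.P.M ^ Q.n))]
    (good : ℕ → ℕ → Fin (Q.P.M ^ Q.n) → Prop) : Prop :=
  ∃ (R : ∀ w : Q.Seed, Acc.Mach (K.sys w)) (P : ∀ w : Q.Seed, H295.Thr (K.sys w) (R w))
    (C7 : ℝ) (L : ℕ → ℝ) (Cap : Q.Seed → ℕ → ℕ → ℕ → Fin (Q.P.M ^ Q.n) → ℝ)
    (Fail : Q.Seed → ℕ → ℕ → ℕ → Fin (Q.P.M ^ Q.n) → Prop),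
    8 ≤ C7 ∧ (∀ w, (P w).th = Par.thm m) ∧ (∀ w, (P w).th' = Par.thpm eps0 m) ∧
    (∀ w s, 0 ≤ (P w).c s) ∧ (∀ w s, 1 ≤ s → s ≤ K.smax → 3 * (P w).c s < 1) ∧
    (∀ w s t, 1 ≤ s → s + 2 ≤ t → t ≤ K.smax → 80 * (P w).c t ≤ 3 * (P w).th s) ∧
    (∀ s, 0 ≤ L s) ∧ (∀ s, L s ≤ CL * m * 2 ^ s) ∧ (∀ w o s a x, 0 ≤ Cap w o s a x) ∧
    (∀ w o, o < 16 ^ K.smax * K.D0 → ∀ s ∈ Icc 1 K.smax, ∀ a, (a + 1) * 2 ^ s < Q.n →
      H295.H3bU (R w) (P w).act C7 L good (Cap w) (Fail w) o s a) ∧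
    (∀ w, ∑ s ∈ Icc 1 K.smax, (K.sys w).avO (fun o => H295.TA (K.sys w) s
      (fun a x => Cap w o s a x)) ≤ CA) ∧
    (∀ o, o < 16 ^ K.smax * K.D0 → av (fun w => ∑ s ∈ Icc 1 K.smax,
      2 ^ s * H295.TA (K.sys w) s (fun a x => ind (Fail w o s a x))) ≤ FA)

/-- **Mean excess of the root from the rows.** -/
theorem ex_of_rows {eps0 CL : ℝ} (he : 0 < eps0) (hCL : 0 ≤ CL) :
    ∀ᶠ m₀ : ℕ in atTop, ∀ (m ℓ μ B w0 J S H Kc D1 n Cn q κr : ℕ) (mc : C.Mach) (N : ℤ)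
      (vis hid : Leaf) (S0 : ℕ → ℕ) (C : Chain (clsPar m ℓ μ B w0 J S H (Kc + 3) D1) vis hid n)
      (hI : Inst2 (clsPar m ℓ μ B w0 J S H (Kc + 3) D1) m w0 Kc κr vis hid n S0 C)
      (K : Cut2 (q2 m ℓ μ B w0 J S H Kc D1 mc n N Cn q) C)
      [Nonempty (Fin ((q2 m ℓ μ B w0 J S H Kc D1 mc n N Cn q).P.M ^
        (q2 m ℓ μ B w0 J S H Kc D1 mc n N Cn q).n))] (HA CA FA : ℝ),
      0 < m → 0 < q → J + 1 ∣ q → K.D0 = m₀ ^ 2 → (K.lo : ℝ) ≤ (n : ℝ) * J / 2 →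
      (5 / 2 + 5 / 2 * (CL * m₀) + 12 * m₀) * 4 ^ K.smax ≤ eps0 * n →
      n * (K.NB * Par.thm m₀ K.smax) ≤ eps0 * n →
      (∀ o, o < 16 ^ K.smax * K.D0 →
        av (fun w => H295.He (K.sys w) (Par.thm m₀ 0 / 2) o) ≤ HA) →
      RowsOK2 eps0 CL m₀ CA FA K (goodU m n C.lab) →
      n * av (fun w => (K.al w).ex n 0 N) ≤
        (4 + eps0) * (((n : ℝ) * J / 2 - K.lo) + J * Real.sqrt n / 2 +
          D1 * (2 / Real.log 2 * (Kc * Real.log 2 + 2 * √(2 * n * (Kc * Real.log 2))) +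
            (κr + 2))) + 4 * eps0 * n + HA + CA + (FA + 2 ^ (K.smax + 1)) +
          8 * n / (2 ^ m) ^ 3 := by
  filter_upwards [qt_value2 he hCL] with m₀ hm
  intro m ℓ μ B w0 J S H Kc D1 n Cn q κr mc N vis hid S0 C hI K _ HA CA FA hm1 hq hJ hD0 hlo hS
    hlast hHA hrows
  obtain ⟨R, P, C7, L, Cap, Fail, h1, h2, h3, h4, h5, h6, h7, h8, h9, h10, h11, h12⟩ := hrows
  have hnq : Nonempty (Fin q) := ⟨⟨0, hq⟩⟩
  refine hm (q2 m ℓ μ B w0 J S H Kc D1 mc n N Cn q) vis hid C K R P C7 L (goodU m n C.lab) Cap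
    (fun w o s a x => Fail w o s a x ∨ (a + 1) * 2 ^ s = n) _ HA CA (FA + 2 ^ (K.smax + 1)) _
    h1 hD0 h2 h3 h4 h5 h6 h7 h8 h9 hS hlast ?_ (val2 hI hq hJ hlo) hHA h11 ?_
    (fun w => bad_sum hI K hm1 w)
  · intro w o ho s hs a ha x hx A hA
    have h13 : (a + 1) * 2 ^ s ≤ n := (Nat.mul_le_mul_right _ ha).trans (Nat.div_mul_le_self _ _)
    have h14 : (a + 1) * 2 ^ s < n := lt_of_le_of_ne h13 fun h => hx (Or.inr h)
    exact h10 w o ho s hs a h14 x (fun h => hx (Or.inl h)) A hA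
  · intro o ho
    have h13 : ∀ w : (q2 m ℓ μ B w0 J S H Kc D1 mc n N Cn q).Seed,
        ∑ s ∈ Icc 1 K.smax, 2 ^ s * H295.TA (K.sys w) s
          (fun a x => ind (Fail w o s a x ∨ (a + 1) * 2 ^ s = n)) ≤
        ∑ s ∈ Icc 1 K.smax, 2 ^ s * H295.TA (K.sys w) s (fun a x => ind (Fail w o s a x)) +
          2 ^ (K.smax + 1) := by
      intro w
      have h14 := root_sum K w
      have h15 : ∑ s ∈ Icc 1 K.smax, 2 ^ s * H295.TA (K.sys w) s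
          (fun a x => ind (Fail w o s a x ∨ (a + 1) * 2 ^ s = n)) ≤
          ∑ s ∈ Icc 1 K.smax, (2 ^ s * H295.TA (K.sys w) s (fun a x => ind (Fail w o s a x)) +
            2 ^ s * H295.TA (K.sys w) s (fun a _ => ind ((a + 1) * 2 ^ s = n))) := by
        refine sum_le_sum fun s _ => ?_
        rw [← mul_add, ← H295.TA_add]
        refine mul_le_mul_of_nonneg_left ?_ (by positivity)
        unfold H295.TA
        refine sum_le_sum fun a _ => H295.E_mono _ fun x => ?_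
        show ind (Fail w o s a x ∨ (a + 1) * 2 ^ s = n) ≤
          ind (Fail w o s a x) + ind ((a + 1) * 2 ^ s = n)
        by_cases h : Fail w o s a x
        · have := ind_nonneg ((a + 1) * 2 ^ s = n)
          rw [ind_true (Or.inl h : _ ∨ _), ind_true h]
          linarith
        · by_cases h' : (a + 1) * 2 ^ s = n
          · have := ind_nonneg (Fail w o s a x)
            rw [ind_true (Or.inr h' : _ ∨ _), ind_true h']
            linarith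
          · rw [ind_false (not_or.2 ⟨h, h'⟩), ind_false h, ind_false h']
            norm_num
      rw [sum_add_distrib] at h15
      exact h15.trans (add_le_add le_rfl h14)
    refine (av_mono h13).trans ?_
    rw [av_add, av_const]
    exact add_le_add (h12 o ho) le_rfl

/-- **`Good2` from the rows.** -/
theorem good2_of_rows {eps0 CL : ℝ} (he : 0 < eps0) (hCL : 0 ≤ CL) :
    ∀ᶠ m₀ : ℕ in atTop, ∀ (m ℓ μ B w0 J S smax H Kc D1 n Cn q κr : ℕ) (mc : C.Mach) (N : ℤ)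
      (ε A HA CA FA : ℝ),
      0 < m → 0 < q → J + 1 ∣ q → 0 < n → 2 ^ smax ∣ n → 0 ≤ N → (N : ℝ) ≤ (n : ℝ) * J / 2 →
      (5 / 2 + 5 / 2 * (CL * m₀) + 12 * m₀) * 4 ^ smax ≤ eps0 * n →
      n * (((n * (J + D1 * (Kc + 3)) + 1 : ℕ) : ℝ) * Par.thm m₀ smax) ≤ eps0 * n →
      (4 + eps0) * (((n : ℝ) * J / 2 - N + 16 ^ smax * (m₀ : ℝ) ^ 2) + J * Real.sqrt n / 2 +
          D1 * (2 / Real.log 2 * (Kc * Real.log 2 + 2 * √(2 * n * (Kc * Real.log 2))) +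
            (κr + 2))) + 4 * eps0 * n + HA + CA + (FA + 2 ^ (smax + 1)) +
          8 * n / (2 ^ m) ^ 3 ≤ ε * n →
      (∀ (vis hid : Leaf) (S0 : ℕ → ℕ) (C : Chain (clsPar m ℓ μ B w0 J S H (Kc + 3) D1) vis hid n)
        (_ : Inst2 (clsPar m ℓ μ B w0 J S H (Kc + 3) D1) m w0 Kc κr vis hid n S0 C)
        (K : Cut2 (q2 m ℓ μ B w0 J S H Kc D1 mc n N Cn q) C)
        [Nonempty (Fin ((q2 m ℓ μ B w0 J S H Kc D1 mc n N Cn q).P.M ^
          (q2 m ℓ μ B w0 J S H Kc D1 mc n N Cn q).n))],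
        K.lo = N - (16 ^ smax * m₀ ^ 2 : ℕ) → K.smax = smax →
        K.NB = n * (J + D1 * (Kc + 3)) + 1 → K.D0 = m₀ ^ 2 → K.qb = J + D1 * (Kc + 3) →
        (∀ o, o < 16 ^ K.smax * K.D0 →
          av (fun w => H295.He (K.sys w) (Par.thm m₀ 0 / 2) o) ≤ HA) ∧
        RowsOK2 eps0 CL m₀ CA FA K (goodU m n C.lab)) →
      (∀ (vis hid : Leaf), av (fun w : (q2 m ℓ μ B w0 J S H Kc D1 mc n N Cn q).Seed =>
        ((rd (clsPar m ℓ μ B w0 J S H (Kc + 3) D1) mc (toRnd J w) vis hid n 0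
          (enc κr 0 0) N).card : ℝ)) ≤ A) →
      Good2 (q2 m ℓ μ B w0 J S H Kc D1 mc n N Cn q) m w0 Kc κr ε A := by
  filter_upwards [ex_of_rows he hCL, eventually_ge_atTop 1] with m₀ hm hm1
  intro m ℓ μ B w0 J S smax H Kc D1 n Cn q κr mc N ε A HA CA FA hmp hq hJ hn0 hn hN0 hN2 hS hlast
    hfinal hrows harea vis hid S0 C hI
  refine ⟨?_, harea vis hid⟩
  have hne : Nonempty (Fin ((q2 m ℓ μ B w0 J S H Kc D1 mc n N Cn q).P.M ^
    (q2 m ℓ μ B w0 J S H Kc D1 mc n N Cn q).n)) :=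
    ⟨⟨0, by show 0 < (2 ^ m) ^ n; positivity⟩⟩
  have hnq : Nonempty (Fin q) := ⟨⟨0, hq⟩⟩
  have hD0 : 0 < m₀ ^ 2 := by positivity
  have hfin : ((n * (J + D1 * (Kc + 3)) : ℕ) : ℤ) ≤ N - (16 ^ smax * m₀ ^ 2 : ℕ) +
      ((n * (J + D1 * (Kc + 3)) + 1) * (16 ^ smax * m₀ ^ 2) : ℕ) := by
    have h1 : 1 ≤ 16 ^ smax * m₀ ^ 2 := Nat.mul_pos (by positivity) hD0
    have h2 : n * (J + D1 * (Kc + 3)) + 16 ^ smax * m₀ ^ 2 ≤
        (n * (J + D1 * (Kc + 3)) + 1) * (16 ^ smax * m₀ ^ 2) := by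
      rw [add_mul, one_mul]
      exact Nat.add_le_add_right (Nat.le_mul_of_pos_right _ h1) _
    have h3 : ((n * (J + D1 * (Kc + 3)) + 16 ^ smax * m₀ ^ 2 : ℕ) : ℤ) ≤
        (((n * (J + D1 * (Kc + 3)) + 1) * (16 ^ smax * m₀ ^ 2) : ℕ) : ℤ) := by exact_mod_cast h2
    rw [Nat.cast_add] at h3
    linarith
  obtain ⟨K, hlo, k2, k3, k4, k5⟩ : ∃ K : Cut2 (q2 m ℓ μ B w0 J S H Kc D1 mc n N Cn q) C,
      K.lo = N - (16 ^ smax * m₀ ^ 2 : ℕ) ∧ K.smax = smax ∧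
      K.NB = n * (J + D1 * (Kc + 3)) + 1 ∧ K.D0 = m₀ ^ 2 ∧ K.qb = J + D1 * (Kc + 3) :=
    ⟨mkCut hI (N - (16 ^ smax * m₀ ^ 2 : ℕ)) smax (n * (J + D1 * (Kc + 3)) + 1) (m₀ ^ 2) hq hD0
      hn hfin (by ring), rfl, rfl, rfl, rfl, rfl⟩
  obtain ⟨hHA, hR⟩ := hrows vis hid S0 C hI K hlo k2 k3 k4 k5
  have hlo2 : (K.lo : ℝ) = (N : ℝ) - 16 ^ smax * (m₀ : ℝ) ^ 2 := by
    rw [hlo]; push_cast; ring
  have hpos : (0 : ℝ) ≤ 16 ^ smax * (m₀ : ℝ) ^ 2 := by positivity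
  have key := hm m ℓ μ B w0 J S H Kc D1 n Cn q κr mc N vis hid S0 C hI K HA CA FA hmp hq hJ k4
    (by rw [hlo2]; linarith) (by rw [k2]; exact hS) (by rw [k2, k3]; exact hlast) hHA hR
  rw [hlo2, k2] at key
  have hn1 : (0 : ℝ) < n := by exact_mod_cast hn0
  have h14 : (n : ℝ) * av (fun w => (K.al w).ex n 0 N) ≤ n * ε := by
    refine key.trans (le_trans (le_of_eq ?_) (hfinal.trans (le_of_eq (mul_comm _ _))))
    ring
  have h15 := K.av_cR_le (le_of_mul_le_mul_left h14 hn1)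
  have h16 : C.lab n 0 = enc κr 0 0 := hI.root_lab
  rw [← h16]
  refine h15.trans (le_of_eq ?_)
  congr 2
  exact sum_congr rfl fun i _ => hI.w i

end Vale.Agent.P315.H846
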