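import Vale.Agent.P315.H679.AccDefs2
import Vale.Agent.P315.H679.AccF1

/-! Step 10 of the accounting (plan 2): from the units to the left side of the machine
inequality. -/

set_option autoImplicit false

open Finset

namespace Vale.Agent.P315.H846

/-- Sliding windows of length `w` inside a block of length `D` of an antitone function. -/
theorem window_sum (f : ℕ → ℝ) (hf : Antitone f) (b D w : ℕ) (hw : w ≤ D) :
    (w : ℝ) * (f (b + w) - f (b + D - w)) ≤
      ∑ i ∈ range (D + 1 - w), (f (b + i) - f (b + i + w)) := by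
  set N := D + 1 - w with hN
  have hNw : N + w = D + 1 := by omega
  have h1 : ∑ i ∈ range (N + w), f (b + i) =
      ∑ i ∈ range N, f (b + i) + ∑ i ∈ range w, f (b + (N + i)) := by
    rw [sum_range_add]
  have h2 : ∑ i ∈ range (w + N), f (b + i) =
      ∑ i ∈ range w, f (b + i) + ∑ i ∈ range N, f (b + (w + i)) := by
    rw [sum_range_add]
  rw [add_comm w N] at h2
  have h3 : ∑ i ∈ range N, f (b + i + w) = ∑ i ∈ range N, f (b + (w + i)) :=
    sum_congr rfl fun i _ => by congr 1; omega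
  have h4 : (w : ℝ) * f (b + w) ≤ ∑ i ∈ range w, f (b + i) := by
    calc (w : ℝ) * f (b + w) = ∑ _i ∈ range w, f (b + w) := by simp
      _ ≤ _ := sum_le_sum fun i hi => hf (by have := mem_range.mp hi; omega)
  have h5 : ∑ i ∈ range w, f (b + (N + i)) ≤ (w : ℝ) * f (b + D - w) := by
    calc ∑ i ∈ range w, f (b + (N + i)) ≤ ∑ _i ∈ range w, f (b + D - w) :=
          sum_le_sum fun i _ => hf (by omega)
      _ = _ := by simp
  rw [sum_sub_distrib, h3]
  linarith

end Vale.Agent.P315.H846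

namespace Vale.Agent.P315.Acc

variable {X : Type} [Fintype X] [Nonempty X]

namespace Sys

variable (S : Sys X)

/-- A unit: its mass in the block, from the windows and the edges. -/
theorem window_edge {o s a k : ℕ} (h2 : 2 ^ s ≤ S.D s) (y : X) :
    2 ^ s * S.nuU o s a y k ≤ 2 ^ s * S.edge o s a y k +
      ∑ i ∈ range (S.D s + 1 - 2 ^ s),
        S.nu (a * 2 ^ s) y (S.b0 o s k + i) (S.b0 o s k + i + 2 ^ s) := by
  have h := H846.window_sum (S.e (a * 2 ^ s) y) (S.anti _ y) (S.b0 o s k) (S.D s) (2 ^ s) h2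
  have hb : S.b1 o s k = S.b0 o s k + S.D s := S.b1_eq_add o s k
  unfold nuU edge nu
  rw [hb]
  push_cast at h
  linarith

end Sys

namespace Mach

variable {S : Sys X} (R : Mach S)

theorem m_meas {o s a : ℕ} {x y : X}
    (h : S.q ((a + 1) * 2 ^ s) x = S.q ((a + 1) * 2 ^ s) y) (k : ℕ) :
    R.m o s a x k = R.m o s a y k := by
  unfold m; rw [R.omMeas s a x y h]

/-- The left side of the machine inequality as the average of one function of the leaf. -/
theorem lhs_eq (C7 : ℝ) (good : ℕ → ℕ → X → Prop) (o s a : ℕ) (x : X) (k : ℕ) :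
    R.lhs C7 good o s a x k = S.av ((a + 1) * 2 ^ s) (fun y =>
      (∑ i ∈ range (S.D s + 1 - 2 ^ s),
        S.nu (a * 2 ^ s) y (S.b0 o s k + i) (S.b0 o s k + i + 2 ^ s)) *
        ind (S.nuU o s a y k ≤ C7 * R.m o s a y k ∧ good s a y)) x := by
  unfold lhs
  rw [← S.av_sum]
  apply le_antisymm
  · refine S.av_mono x fun y hy => ?_
    rw [R.m_meas hy.symm k, sum_mul]
  · refine S.av_mono x fun y hy => ?_
    rw [R.m_meas hy.symm k, sum_mul]

theorem step10 (good : ℕ → ℕ → X → Prop) {o s a : ℕ}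
    (_hs : s ≤ S.smax) (_ha : a < S.na s) (h2 : 2 ^ s ≤ S.D s) (P : X → Prop)
    (hP : ∀ x y, S.q ((a + 1) * 2 ^ s) x = S.q ((a + 1) * 2 ^ s) y → (P x ↔ P y)) (k : ℕ) :
    2 ^ s * S.E (fun x => ind (P x) * S.rho o s a x k) ≤
      2 ^ s * S.E (fun x => ind (P x) *
        (S.nuU o s a x k * ind (8 * R.m o s a x k < S.nuU o s a x k))) +
      2 ^ s * S.E (fun x => ind (P x) * (ind (¬ good s a x) * S.nuU o s a x k)) +
      2 ^ s * S.E (fun x => S.edge o s a x k) +
      S.E (fun x => ind (P x) * R.lhs 8 good o s a x k) := by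
  have hPm : ∀ x y, S.q ((a + 1) * 2 ^ s) y = S.q ((a + 1) * 2 ^ s) x →
      ind (P y) = ind (P x) := fun x y h => ind_congr (hP y x h)
  have e1 : S.E (fun x => ind (P x) * S.rho o s a x k) =
      S.E (fun x => ind (P x) * S.nuU o s a x k) := by
    rw [← S.E_pull ((a + 1) * 2 ^ s) (f := fun y => S.nuU o s a y k)
      (h := fun x => ind (P x)) hPm]
    exact S.E_congr fun x => by rw [S.rho_eq_av]
  have e2 : S.E (fun x => ind (P x) * R.lhs 8 good o s a x k) =
      S.E (fun y => ind (P y) * ((∑ i ∈ range (S.D s + 1 - 2 ^ s),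
        S.nu (a * 2 ^ s) y (S.b0 o s k + i) (S.b0 o s k + i + 2 ^ s)) *
        ind (S.nuU o s a y k ≤ 8 * R.m o s a y k ∧ good s a y))) := by
    rw [← S.E_pull ((a + 1) * 2 ^ s) (f := fun y => (∑ i ∈ range (S.D s + 1 - 2 ^ s),
        S.nu (a * 2 ^ s) y (S.b0 o s k + i) (S.b0 o s k + i + 2 ^ s)) *
        ind (S.nuU o s a y k ≤ 8 * R.m o s a y k ∧ good s a y))
      (h := fun x => ind (P x)) hPm]
    exact S.E_congr fun x => by rw [R.lhs_eq]
  rw [e1, e2, ← S.E_mul_left, ← S.E_mul_left, ← S.E_mul_left, ← S.E_mul_left, ← S.E_add,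
    ← S.E_add, ← S.E_add]
  refine S.E_mono fun y => ?_
  have hU : 0 ≤ S.nuU o s a y k := S.nuU_nonneg o s a y k
  have h2p : (0 : ℝ) < 2 ^ s := by positivity
  have hE : 0 ≤ S.edge o s a y k := by
    unfold Sys.edge
    refine add_nonneg (S.nu_nonneg _ _ (Nat.le_add_right _ _)) (S.nu_nonneg _ _ (Nat.sub_le _ _))
  have hW : 0 ≤ ∑ i ∈ range (S.D s + 1 - 2 ^ s),
      S.nu (a * 2 ^ s) y (S.b0 o s k + i) (S.b0 o s k + i + 2 ^ s) :=
    sum_nonneg fun i _ => S.nu_nonneg _ _ (Nat.le_add_right _ _)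
  have hwe := S.window_edge (o := o) (a := a) (k := k) h2 y
  have hPn := ind_nonneg (P y)
  by_cases hPy : P y
  · rw [ind_true hPy]
    by_cases hc : 8 * R.m o s a y k < S.nuU o s a y k
    · rw [ind_true hc, ind_false (p := S.nuU o s a y k ≤ 8 * R.m o s a y k ∧ good s a y)
        (fun h => absurd h.1 (not_le.mpr hc))]
      have := ind_nonneg (¬ good s a y)
      have h3 : 0 ≤ 2 ^ s * (1 * (ind (¬ good s a y) * S.nuU o s a y k)) := by positivity
      have h4 : 0 ≤ 2 ^ s * S.edge o s a y k := by positivity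
      linarith
    · rw [ind_false hc]
      by_cases hg : good s a y
      · rw [ind_true (p := S.nuU o s a y k ≤ 8 * R.m o s a y k ∧ good s a y)
          ⟨not_lt.mp hc, hg⟩, ind_false (p := ¬ good s a y) (fun h => h hg)]
        linarith
      · rw [ind_true (p := ¬ good s a y) hg,
          ind_false (p := S.nuU o s a y k ≤ 8 * R.m o s a y k ∧ good s a y)
            (fun h => hg h.2)]
        have h4 : 0 ≤ 2 ^ s * S.edge o s a y k := by positivity
        linarith
  · rw [ind_false hPy]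
    have h4 : 0 ≤ 2 ^ s * S.edge o s a y k := by positivity
    linarith

end Mach

end Vale.Agent.P315.Acc
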