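import Vale.Agent.P315.H846.Conc

/-!
# Telescoping of the truncated entropy over the levels of an averaging tree (P315, step (F3))

The tree is abstract: node types `Nd q`, positive normalised linear averages `E q`, children
`ch q : Nd (q+1) → ι → Nd q` with `E (q+1)` of the average over the children equal to `E q`.
`nu q R B` is the mass of the node `R` in the block `B`, `G` the gain at the left end of the block.
-/

namespace Vale.Agent.P315.H846

open Finset

section Tele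

variable {Nd : ℕ → Type*} {ι β : Type*} [Fintype ι] [Nonempty ι]

/-- Monotonicity of a positive linear functional. -/
theorem mono_of_pos {X : Type*} (E : (X → ℝ) →ₗ[ℝ] ℝ) (hE0 : ∀ f : X → ℝ, (∀ x, 0 ≤ f x) → 0 ≤ E f)
    {f g : X → ℝ} (h : ∀ x, f x ≤ g x) : E f ≤ E g := by
  have h1 := hE0 (g - f) (fun x => by simpa using h x)
  rw [map_sub] at h1
  linarith

/-- **(F3), the telescoped concentration inequality.** -/
theorem tele_conc (E : ∀ q, (Nd q → ℝ) →ₗ[ℝ] ℝ)
    (hE0 : ∀ q (f : Nd q → ℝ), (∀ R, 0 ≤ f R) → 0 ≤ E q f)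
    (hE1 : ∀ q, E q (fun _ => 1) = 1)
    (ch : ∀ q, Nd (q + 1) → ι → Nd q)
    (hch : ∀ q (f : Nd q → ℝ),
      E (q + 1) (fun R => (∑ i, f (ch q R i)) / (Fintype.card ι : ℝ)) = E q f)
    (S : Finset β) (nu : ∀ q, Nd q → β → ℝ) (G : ∀ q, Nd q → β → ℝ)
    (hnu0 : ∀ q R B, 0 ≤ nu q R B) (hnu1 : ∀ q R, ∑ B ∈ S, nu q R B ≤ 1)
    (hG0 : ∀ q R B, 0 ≤ G q R B)
    (hF1 : ∀ q R, ∀ B ∈ S,
      (∑ i, nu q (ch q R i) B) / (Fintype.card ι : ℝ) ≤ nu (q + 1) R B + G (q + 1) R B)
    {A Lam : ℝ} (hA : 0 ≤ A) (hL : Real.exp (3 / 2) ≤ Lam)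
    (exc : ∀ q, Nd (q + 1) → ι → β → Prop) [∀ q R i B, Decidable (exc q R i B)]
    (hexc : ∀ q R i, ∀ B ∈ S, exc q R i B →
      Lam * ((∑ i, nu q (ch q R i) B) / (Fintype.card ι : ℝ)) ≤ nu q (ch q R i) B ∧
        Real.exp (3 - A) ≤ nu q (ch q R i) B) (K : ℕ) :
    ∑ q ∈ range K, E (q + 1) (fun R => ∑ B ∈ S,
        (∑ i, if exc q R i B then nu q (ch q R i) B else 0) / (Fintype.card ι : ℝ)) ≤
      2 * (A + A * ∑ q ∈ range K, E (q + 1) (fun R => ∑ B ∈ S, G (q + 1) R B)) := by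
  set H : ℕ → ℝ := fun q => E q (fun R => ∑ B ∈ S, Psi A (nu q R B)) with hH
  have hle1 : ∀ q R, ∀ B ∈ S, nu q R B ≤ 1 := fun q R B hB =>
    (single_le_sum (f := fun B => nu q R B) (fun B _ => hnu0 q R B) hB).trans (hnu1 q R)
  have hH0 : ∀ q, 0 ≤ H q := fun q => hE0 q _ fun R => sum_nonneg fun B hB =>
    Psi_nonneg hA (hnu0 q R B) (hle1 q R B hB)
  have hHA : ∀ q, H q ≤ A := by
    intro q
    have h1 : H q ≤ E q (fun _ => A) := by
      refine mono_of_pos (E q) (hE0 q) fun R => ?_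
      calc ∑ B ∈ S, Psi A (nu q R B) ≤ ∑ B ∈ S, A * nu q R B :=
            sum_le_sum fun B _ => Psi_le hA (hnu0 q R B)
        _ = A * ∑ B ∈ S, nu q R B := by rw [mul_sum]
        _ ≤ A * 1 := mul_le_mul_of_nonneg_left (hnu1 q R) hA
        _ = A := mul_one A
    have h2 : E q (fun _ => A) = A := by
      have : (fun _ : Nd q => A) = A • (fun _ : Nd q => (1 : ℝ)) := by
        funext x; simp
      rw [this, map_smul, hE1 q]; simp
    rw [h2] at h1
    exact h1
  -- one level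
  have hstep : ∀ q, E (q + 1) (fun R => ∑ B ∈ S,
        (∑ i, if exc q R i B then nu q (ch q R i) B else 0) / (Fintype.card ι : ℝ)) ≤
      2 * (H (q + 1) - H q + A * E (q + 1) (fun R => ∑ B ∈ S, G (q + 1) R B)) := by
    intro q
    have hpt : ∀ R : Nd (q + 1), ∑ B ∈ S,
        (∑ i, if exc q R i B then nu q (ch q R i) B else 0) / (Fintype.card ι : ℝ) ≤
        2 * (∑ B ∈ S, Psi A (nu (q + 1) R B)) + 2 * A * (∑ B ∈ S, G (q + 1) R B)
          - 2 * ((∑ i, ∑ B ∈ S, Psi A (nu q (ch q R i) B)) / (Fintype.card ι : ℝ)) := by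
      intro R
      have hB : ∀ B ∈ S,
          (∑ i, if exc q R i B then nu q (ch q R i) B else 0) / (Fintype.card ι : ℝ) ≤
          2 * Psi A (nu (q + 1) R B) + 2 * A * G (q + 1) R B
            - 2 * ((∑ i, Psi A (nu q (ch q R i) B)) / (Fintype.card ι : ℝ)) := by
        intro B hB
        have h1 := conc_avg (fun i => nu q (ch q R i) B) (A := A) (Lam := Lam) hA hL
          (fun i => hnu0 q _ B) rfl (fun i => exc q R i B)
          (fun i he => hexc q R i B hB he)
        have hp0 : 0 ≤ (∑ i, nu q (ch q R i) B) / (Fintype.card ι : ℝ) :=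
          div_nonneg (sum_nonneg fun i _ => hnu0 q _ B) (Nat.cast_nonneg _)
        have h2 := Psi_sub_le (A := A) (p := (∑ i, nu q (ch q R i) B) / (Fintype.card ι : ℝ))
          (r := nu (q + 1) R B) hA hp0 (hnu0 (q + 1) R B) (hle1 (q + 1) R B hB)
        have h3 : max ((∑ i, nu q (ch q R i) B) / (Fintype.card ι : ℝ) - nu (q + 1) R B) 0
            ≤ G (q + 1) R B := max_le (by linarith [hF1 q R B hB]) (hG0 (q + 1) R B)
        have h4 := mul_le_mul_of_nonneg_left h3 hA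
        linarith
      refine (sum_le_sum hB).trans (le_of_eq ?_)
      rw [sum_sub_distrib, sum_add_distrib, ← mul_sum, ← mul_sum, ← mul_sum, ← sum_div,
        sum_comm]
    have h1 := mono_of_pos (E (q + 1)) (hE0 (q + 1)) hpt
    refine h1.trans (le_of_eq ?_)
    have e : (fun R : Nd (q + 1) => 2 * (∑ B ∈ S, Psi A (nu (q + 1) R B))
          + 2 * A * (∑ B ∈ S, G (q + 1) R B)
          - 2 * ((∑ i, ∑ B ∈ S, Psi A (nu q (ch q R i) B)) / (Fintype.card ι : ℝ)))
        = (2 : ℝ) • (fun R : Nd (q + 1) => ∑ B ∈ S, Psi A (nu (q + 1) R B))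
          + (2 * A) • (fun R : Nd (q + 1) => ∑ B ∈ S, G (q + 1) R B)
          - (2 : ℝ) • (fun R : Nd (q + 1) =>
              (∑ i, ∑ B ∈ S, Psi A (nu q (ch q R i) B)) / (Fintype.card ι : ℝ)) := by
      funext R
      simp [smul_eq_mul]
    rw [e, map_sub, map_add, map_smul, map_smul, map_smul,
      hch q (fun U => ∑ B ∈ S, Psi A (nu q U B))]
    simp only [smul_eq_mul, hH]
    ring
  calc _ ≤ ∑ q ∈ range K, 2 * (H (q + 1) - H q
          + A * E (q + 1) (fun R => ∑ B ∈ S, G (q + 1) R B)) := sum_le_sum fun q _ => hstep q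
    _ = 2 * ((H K - H 0) + A * ∑ q ∈ range K, E (q + 1) (fun R => ∑ B ∈ S, G (q + 1) R B)) := by
        rw [← mul_sum, sum_add_distrib, sum_range_sub, ← mul_sum]
    _ ≤ _ := by
        have := hHA K
        have := hH0 0
        linarith

end Tele

end Vale.Agent.P315.H846
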